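import Mathlib

/-! P267 / H701 (helper701), package G-DEG1, part 1: removing a thin set (a countable union of
`C¹` images of two dimensional convex sets) from a connected open set of a real vector space of
dimension at least four leaves a connected dense set. -/

open Set Filter Topology Metric Module

namespace Vale.Agent.P267.H701

variable {E : Type*} [NormedAddCommGroup E] [NormedSpace ℝ E]

/-- a countable union of `C¹` images of convex subsets of the plane -/
def Thin (S : Set E) : Prop :=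
  ∃ (ι : Type) (_ : Countable ι) (f : ι → ℂ → E) (A : ι → Set ℂ),
    (∀ k, Convex ℝ (A k)) ∧ (∀ k, ContDiffOn ℝ 1 (f k) (A k)) ∧ S ⊆ ⋃ k, f k '' A k

theorem Thin.mono {S T : Set E} (h : Thin T) (hST : S ⊆ T) : Thin S := by
  obtain ⟨ι, hι, f, A, h1, h2, h3⟩ := h
  exact ⟨ι, hι, f, A, h1, h2, hST.trans h3⟩

theorem thin_countable {S : Set E} (h : S.Countable) : Thin S := by
  rcases S.eq_empty_or_nonempty with rfl | hne
  · exact ⟨Empty, inferInstance, fun k => k.elim, fun k => k.elim, fun k => k.elim,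
      fun k => k.elim, empty_subset _⟩
  obtain ⟨f, hf⟩ := h.exists_eq_range hne
  refine ⟨ℕ, inferInstance, fun k _ => f k, fun _ => univ, fun _ => convex_univ,
    fun k => contDiffOn_const, ?_⟩
  rw [hf]
  rintro _ ⟨k, rfl⟩
  exact mem_iUnion.2 ⟨k, 0, mem_univ _, rfl⟩

theorem Thin.union {S T : Set E} (h : Thin S) (h' : Thin T) : Thin (S ∪ T) := by
  obtain ⟨ι, hι, f, A, h1, h2, h3⟩ := h
  obtain ⟨κ, hκ, g, B, h4, h5, h6⟩ := h'
  refine ⟨ι ⊕ κ, inferInstance, Sum.elim f g, Sum.elim A B, ?_, ?_, ?_⟩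
  · rintro (k | k)
    exacts [h1 k, h4 k]
  · rintro (k | k)
    exacts [h2 k, h5 k]
  · rintro x (hx | hx)
    · obtain ⟨k, hk⟩ := mem_iUnion.1 (h3 hx)
      exact mem_iUnion.2 ⟨Sum.inl k, hk⟩
    · obtain ⟨k, hk⟩ := mem_iUnion.1 (h6 hx)
      exact mem_iUnion.2 ⟨Sum.inr k, hk⟩

/-- the cone of a thin set seen from a point outside it has dimension at most three -/
theorem dimH_cone {S : Set E} (hS : Thin S) {u : E} (hu : u ∉ S) :
    dimH {p : E | ∃ s ∈ S, s ∈ segment ℝ u p} ≤ 3 := by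
  obtain ⟨ι, hι, f, A, h1, h2, h3⟩ := hS
  have hsub : {p : E | ∃ s ∈ S, s ∈ segment ℝ u p} ⊆
      ⋃ k, (fun q : ℂ × ℝ => u + q.2 • (f k q.1 - u)) '' (A k ×ˢ univ) := by
    rintro p ⟨s, hsS, a, b, ha, hb, hab, rfl⟩
    obtain ⟨k, c, hc, hcs⟩ := mem_iUnion.1 (h3 hsS)
    have hb0 : b ≠ 0 := by
      rintro rfl
      apply hu
      have : a = 1 := by linarith
      subst this
      simpa using hsS
    refine mem_iUnion.2 ⟨k, (c, b⁻¹), ⟨hc, mem_univ _⟩, ?_⟩
    change u + b⁻¹ • (f k c - u) = p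
    rw [hcs]
    have ha' : a = 1 - b := by linarith
    have e1 : a • u + b • p - u = b • (p - u) := by
      rw [ha', sub_smul, one_smul, smul_sub]
      abel
    rw [e1, smul_smul, inv_mul_cancel₀ hb0, one_smul]
    abel
  refine (dimH_mono hsub).trans ?_
  rw [dimH_iUnion]
  refine iSup_le fun k => ?_
  have h4 : ContDiffOn ℝ 1 (fun q : ℂ × ℝ => u + q.2 • (f k q.1 - u)) (A k ×ˢ univ) := by
    have h5 : ContDiffOn ℝ 1 (fun q : ℂ × ℝ => f k q.1) (A k ×ˢ univ) :=
      (h2 k).comp contDiff_fst.contDiffOn fun q hq => hq.1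
    exact contDiffOn_const.add (contDiff_snd.contDiffOn.smul (h5.sub contDiffOn_const))
  refine (h4.dimH_image_le ((h1 k).prod convex_univ) subset_rfl).trans ?_
  refine (dimH_mono (subset_univ _)).trans ?_
  rw [Real.dimH_univ_eq_finrank]
  simp only [Module.finrank_prod, Complex.finrank_real_complex, Module.finrank_self]
  norm_num

/-- a thin set has dimension at most two -/
theorem dimH_thin {S : Set E} (hS : Thin S) : dimH S ≤ 2 := by
  obtain ⟨ι, hι, f, A, h1, h2, h3⟩ := hS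
  refine (dimH_mono h3).trans ?_
  rw [dimH_iUnion]
  refine iSup_le fun k => ?_
  refine ((h2 k).dimH_image_le (h1 k) subset_rfl).trans ?_
  refine (dimH_mono (subset_univ _)).trans ?_
  rw [Real.dimH_univ_eq_finrank]
  simp [Complex.finrank_real_complex]

variable [FiniteDimensional ℝ E]

/-- a convex open set minus a thin set is connected -/
theorem isPreconnected_convex_diff (hE : 3 < finrank ℝ E) {S B : Set E} (hS : Thin S)
    (hB : IsOpen B) (hBc : Convex ℝ B) : IsPreconnected (B \ S) := by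
  refine isPreconnected_of_forall_pair fun u hu v hv => ?_
  have h1 : dimH ({p : E | ∃ s ∈ S, s ∈ segment ℝ u p} ∪ {p : E | ∃ s ∈ S, s ∈ segment ℝ v p}) <
      finrank ℝ E := by
    rw [dimH_union]
    refine lt_of_le_of_lt (max_le (dimH_cone hS hu.2) (dimH_cone hS hv.2)) ?_
    exact_mod_cast hE
  have h2 := dense_compl_of_dimH_lt_finrank h1
  obtain ⟨p, hpB, hp⟩ := h2.exists_mem_open hB ⟨u, hu.1⟩
  rw [mem_compl_iff, mem_union, not_or] at hpB
  obtain ⟨hp1, hp2⟩ := hpB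
  refine ⟨segment ℝ u p ∪ segment ℝ v p, ?_, Or.inl (left_mem_segment ℝ u p),
    Or.inr (left_mem_segment ℝ v p), ?_⟩
  · rintro x (hx | hx)
    · exact ⟨hBc.segment_subset hu.1 hp hx, fun hxS => hp1 ⟨x, hxS, hx⟩⟩
    · exact ⟨hBc.segment_subset hv.1 hp hx, fun hxS => hp2 ⟨x, hxS, hx⟩⟩
  · exact (convex_segment u p).isPreconnected.union p (right_mem_segment ℝ u p)
      (right_mem_segment ℝ v p) (convex_segment v p).isPreconnected

/-- the complement of a thin set is dense -/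
theorem dense_compl_thin (hE : 3 < finrank ℝ E) {S : Set E} (hS : Thin S) : Dense Sᶜ := by
  refine dense_compl_of_dimH_lt_finrank (lt_of_le_of_lt (dimH_thin hS) ?_)
  exact_mod_cast (by omega : 2 < finrank ℝ E)

/-- **an open connected set minus a thin set is connected** -/
theorem isPreconnected_diff (hE : 3 < finrank ℝ E) {S V : Set E} (hS : Thin S)
    (hV : IsOpen V) (hVc : IsPreconnected V) : IsPreconnected (V \ S) := by
  intro u v hu hv huv hne1 hne2
  by_contra hcon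
  rw [not_nonempty_iff_eq_empty] at hcon
  let P : Set E → Set E := fun w => {x | x ∈ V ∧ ∃ r > 0, ball x r ⊆ V ∧ ball x r \ S ⊆ w}
  have hPo : ∀ w, IsOpen (P w) := by
    intro w
    refine Metric.isOpen_iff.2 ?_
    rintro x ⟨hxV, r, hr, hrV, hrw⟩
    refine ⟨r, hr, fun y hy => ?_⟩
    obtain ⟨δ, hδ, hδ'⟩ := Metric.isOpen_iff.1 isOpen_ball y hy
    exact ⟨hrV hy, δ, hδ, hδ'.trans hrV, fun z hz => hrw ⟨hδ' hz.1, hz.2⟩⟩
  have hcov : V ⊆ P u ∪ P v := by
    intro x hx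
    obtain ⟨r, hr, hrV⟩ := Metric.isOpen_iff.1 hV x hx
    have h1 := isPreconnected_convex_diff hE hS (isOpen_ball (x := x) (ε := r)) (convex_ball x r)
    have h2 : ball x r \ S ⊆ u ∪ v := fun y hy => huv ⟨hrV hy.1, hy.2⟩
    by_cases h3 : (ball x r \ S ∩ v).Nonempty
    · by_cases h4 : (ball x r \ S ∩ u).Nonempty
      · obtain ⟨y, hy, hyuv⟩ := h1 u v hu hv h2 h4 h3
        exact absurd (show y ∈ V \ S ∩ (u ∩ v) from ⟨⟨hrV hy.1, hy.2⟩, hyuv⟩) (by rw [hcon]; simp)
      · refine Or.inr ⟨hx, r, hr, hrV, fun y hy => ?_⟩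
        rcases h2 hy with h5 | h5
        · exact absurd ⟨y, hy, h5⟩ h4
        · exact h5
    · refine Or.inl ⟨hx, r, hr, hrV, fun y hy => ?_⟩
      rcases h2 hy with h5 | h5
      · exact h5
      · exact absurd ⟨y, hy, h5⟩ h3
  have hmem : ∀ w, ∀ x ∈ V \ S, x ∈ P w → x ∈ w := by
    rintro w x ⟨hxV, hxS⟩ ⟨-, r, hr, -, hrw⟩
    exact hrw ⟨mem_ball_self hr, hxS⟩
  have hswap : ∀ x ∈ V \ S, x ∈ u → x ∈ P u := by
    intro x hx hxu
    rcases hcov hx.1 with h1 | h1
    · exact h1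
    · exact absurd (show x ∈ V \ S ∩ (u ∩ v) from ⟨hx, hxu, hmem v x hx h1⟩) (by rw [hcon]; simp)
  have hswap' : ∀ x ∈ V \ S, x ∈ v → x ∈ P v := by
    intro x hx hxv
    rcases hcov hx.1 with h1 | h1
    · exact absurd (show x ∈ V \ S ∩ (u ∩ v) from ⟨hx, hmem u x hx h1, hxv⟩) (by rw [hcon]; simp)
    · exact h1
  obtain ⟨a, ha, hau⟩ := hne1
  obtain ⟨b, hb, hbv⟩ := hne2
  obtain ⟨x, hxV, ⟨-, r, hr, -, hru⟩, ⟨-, r', hr', -, hrv⟩⟩ :=
    hVc (P u) (P v) (hPo u) (hPo v) hcov ⟨a, ha.1, hswap a ha hau⟩ ⟨b, hb.1, hswap' b hb hbv⟩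
  obtain ⟨δ, hδ, hδV⟩ := Metric.isOpen_iff.1 hV x hxV
  obtain ⟨y, hyS, hy⟩ := (dense_compl_thin hE hS).exists_mem_open
    (isOpen_ball (x := x) (ε := min δ (min r r'))) ⟨x, mem_ball_self (by positivity)⟩
  have hy1 : y ∈ ball x δ := ball_subset_ball (min_le_left _ _) hy
  have hy2 : y ∈ ball x r := ball_subset_ball ((min_le_right _ _).trans (min_le_left _ _)) hy
  have hy3 : y ∈ ball x r' := ball_subset_ball ((min_le_right _ _).trans (min_le_right _ _)) hy
  exact absurd (show y ∈ V \ S ∩ (u ∩ v) from ⟨⟨hδV hy1, hyS⟩, hru ⟨hy2, hyS⟩, hrv ⟨hy3, hyS⟩⟩)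
    (by rw [hcon]; simp)

end Vale.Agent.P267.H701
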