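import Mathlib

/-! P267 / H701 (helper701), package G-DEG1, part 2: near an isolated critical point a holomorphic
function of one variable is not injective. -/

open Set Filter Topology Metric

namespace Vale.Agent.P267.H701

/-- a holomorphic function is not injective on any punctured neighbourhood of an isolated zero of
its derivative -/
theorem exists_two_preimages {f : ℂ → ℂ} (hf : AnalyticAt ℂ f 0) (h0 : deriv f 0 = 0)
    (hne : ∀ᶠ b in 𝓝[≠] (0 : ℂ), deriv f b ≠ 0) {N : Set ℂ} (hN : N ∈ 𝓝 (0 : ℂ)) :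
    ∃ b₁ ∈ N, ∃ b₂ ∈ N, b₁ ≠ b₂ ∧ b₁ ≠ 0 ∧ b₂ ≠ 0 ∧ f b₁ = f b₂ := by
  have hf1 : AnalyticAt ℂ (fun b => f b - f 0) 0 := hf.sub analyticAt_const
  have hord : analyticOrderAt (fun b => f b - f 0) 0 ≠ ⊤ := by
    intro h
    rw [analyticOrderAt_eq_top] at h
    have h1 : ∀ᶠ b in 𝓝 (0 : ℂ), deriv f b = 0 := by
      filter_upwards [eventually_eventually_nhds.2 h] with b hb
      have h2 : f =ᶠ[𝓝 b] fun _ => f 0 := by
        filter_upwards [hb] with c hc
        exact sub_eq_zero.1 hc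
      rw [h2.deriv_eq]
      simp
    have h3 : ∀ᶠ b in 𝓝[≠] (0 : ℂ), False := by
      filter_upwards [hne, h1.filter_mono nhdsWithin_le_nhds] with b hb hb'
      exact hb hb'
    exact h3.exists.elim fun _ h => h
  obtain ⟨n, hn⟩ := ENat.ne_top_iff_exists.1 hord
  obtain ⟨u, hu, hu0, hfu⟩ := (hf1.analyticOrderAt_eq_natCast).1 hn.symm
  simp only [sub_zero, smul_eq_mul] at hfu
  -- the order is at least two
  have hn2 : 2 ≤ n := by
    by_contra hcon
    have hn01 : n = 0 ∨ n = 1 := by omega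
    rcases hn01 with h1 | h1
    · subst h1
      have h2 := hfu.self_of_nhds
      simp at h2
      exact hu0 h2.symm
    · subst h1
      have h2 : HasDerivAt (fun b : ℂ => b ^ 1 * u b) (u 0) 0 := by
        have h3 := (hasDerivAt_id (0 : ℂ)).mul hu.differentiableAt.hasDerivAt
        simp only [id, one_mul, zero_mul, add_zero] at h3
        refine h3.congr_of_eventuallyEq (Eventually.of_forall fun b => ?_)
        simp
      have h4 : HasDerivAt (fun b => f b - f 0) (u 0) 0 := h2.congr_of_eventuallyEq hfu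
      have h5 := (hf.differentiableAt.hasDerivAt.sub_const (f 0)).unique h4
      rw [h0] at h5
      exact hu0 h5.symm
  have hn0 : (n : ℂ) ≠ 0 := by exact_mod_cast (by omega : n ≠ 0)
  -- an `n`-th root of `u`
  obtain ⟨c, hc⟩ : ∃ c : ℂ, c ^ n = u 0 := IsAlgClosed.exists_pow_nat_eq (u 0) (by omega)
  have hc0 : c ≠ 0 := by
    rintro rfl
    rw [zero_pow (by omega)] at hc
    exact hu0 hc.symm
  set v : ℂ → ℂ := fun b => c * Complex.exp (Complex.log (u b / u 0) / n) with hv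
  have hquo : AnalyticAt ℂ (fun b => u b / u 0) 0 := hu.div_const
  have hlog : AnalyticAt ℂ (fun b => Complex.log (u b / u 0)) 0 :=
    hquo.clog (by simp [div_self hu0])
  have hvan : AnalyticAt ℂ v 0 := analyticAt_const.mul (hlog.div_const).cexp
  have hv0 : v 0 = c := by simp [hv, div_self hu0]
  have hvn : ∀ᶠ b in 𝓝 (0 : ℂ), v b ^ n = u b := by
    filter_upwards [hu.continuousAt.eventually_ne hu0] with b hb
    rw [hv]
    simp only
    rw [mul_pow, hc, ← Complex.exp_nat_mul, mul_div_cancel₀ _ hn0,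
      Complex.exp_log (div_ne_zero hb hu0), mul_div_cancel₀ _ hu0]
  set h : ℂ → ℂ := fun b => b * v b with hh
  have hhan : AnalyticAt ℂ h 0 := analyticAt_id.mul hvan
  have hh0 : h 0 = 0 := by simp [hh]
  have hhd : deriv h 0 = c := by
    have h3 := (hasDerivAt_id (0 : ℂ)).mul hvan.differentiableAt.hasDerivAt
    simp only [id, one_mul, zero_mul, add_zero, hv0] at h3
    exact h3.deriv
  have hstrict : HasStrictDerivAt h c 0 := by
    have := hhan.hasStrictDerivAt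
    rwa [hhd] at this
  have hmap : map h (𝓝 0) = 𝓝 0 := by
    have := hstrict.map_nhds_eq hc0
    rwa [hh0] at this
  -- a nontrivial `n`-th root of unity
  obtain ⟨ζ, hζ⟩ : ∃ ζ : ℂ, IsPrimitiveRoot ζ n :=
    ⟨_, Complex.isPrimitiveRoot_exp n (by omega)⟩
  have hζ1 : ζ ≠ 1 := hζ.ne_one (by omega)
  have hN' : {b | b ∈ N ∧ f b - f 0 = b ^ n * u b ∧ v b ^ n = u b} ∈ 𝓝 (0 : ℂ) := by
    filter_upwards [hN, hfu, hvn] with b h1 h2 h3 using ⟨h1, h2, h3⟩
  have him : h '' {b | b ∈ N ∧ f b - f 0 = b ^ n * u b ∧ v b ^ n = u b} ∈ 𝓝 (0 : ℂ) := by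
    rw [← hmap]
    exact image_mem_map hN'
  have him2 : ∀ᶠ w in 𝓝 (0 : ℂ), ζ * w ∈
      h '' {b | b ∈ N ∧ f b - f 0 = b ^ n * u b ∧ v b ^ n = u b} := by
    have ht : Tendsto (fun w : ℂ => ζ * w) (𝓝 0) (𝓝 0) := by
      have : Tendsto (fun w : ℂ => ζ * w) (𝓝 0) (𝓝 (ζ * 0)) := (continuous_const_mul ζ).tendsto 0
      rwa [mul_zero] at this
    exact ht.eventually him
  have hex : ∃ w : ℂ, w ≠ 0 ∧ w ∈ h '' {b | b ∈ N ∧ f b - f 0 = b ^ n * u b ∧ v b ^ n = u b} ∧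
      ζ * w ∈ h '' {b | b ∈ N ∧ f b - f 0 = b ^ n * u b ∧ v b ^ n = u b} := by
    have h1 : ∀ᶠ w in 𝓝[≠] (0 : ℂ), w ≠ 0 ∧ w ∈ h '' {b | b ∈ N ∧ f b - f 0 = b ^ n * u b ∧
        v b ^ n = u b} ∧
        ζ * w ∈ h '' {b | b ∈ N ∧ f b - f 0 = b ^ n * u b ∧ v b ^ n = u b} := by
      filter_upwards [self_mem_nhdsWithin, nhdsWithin_le_nhds him,
        nhdsWithin_le_nhds him2] with w h1 h2 h3 using ⟨h1, h2, h3⟩
    exact h1.exists
  obtain ⟨w, hw0, ⟨b₁, ⟨hb₁N, hb₁f, hb₁v⟩, hb₁⟩, b₂, ⟨hb₂N, hb₂f, hb₂v⟩, hb₂⟩ := hex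
  have hne12 : b₁ ≠ b₂ := by
    rintro rfl
    rw [hb₁] at hb₂
    apply hζ1
    have h4 : (ζ - 1) * w = 0 := by rw [sub_mul, one_mul, ← hb₂, sub_self]
    rcases mul_eq_zero.1 h4 with h5 | h5
    · exact sub_eq_zero.1 h5
    · exact absurd h5 hw0
  refine ⟨b₁, hb₁N, b₂, hb₂N, hne12, ?_, ?_, ?_⟩
  · rintro rfl
    rw [hh0] at hb₁
    exact hw0 hb₁.symm
  · rintro rfl
    rw [hh0] at hb₂
    rcases mul_eq_zero.1 hb₂.symm with h5 | h5
    · exact hζ.ne_zero (by omega) h5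
    · exact hw0 h5
  · have e1 : f b₁ - f 0 = w ^ n := by
      rw [hb₁f, ← hb₁v, ← mul_pow, ← hb₁]
    have e2 : f b₂ - f 0 = w ^ n := by
      rw [hb₂f, ← hb₂v, ← mul_pow]
      change (h b₂) ^ n = w ^ n
      rw [hb₂, mul_pow, hζ.pow_eq_one, one_mul]
    exact sub_left_injective (e1.trans e2.symm)

end Vale.Agent.P267.H701
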