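import Vale.Agent.P267.H701.Flat
import Vale.Agent.P267.H535.Sing

/-! P267 / H701 (helper701), package G-DEG1, part 4: immersive points of a holomorphic map from a
complex surface to the plane. -/

open Set Filter Topology Metric
open scoped Manifold ContDiff

namespace Vale.Agent.P267.H701

open Vale.Agent.P267.H331

/-- the determinant of a linear map of the plane -/
noncomputable def Jd (L : (Fin 2 → ℂ) →L[ℂ] (Fin 2 → ℂ)) : ℂ :=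
  L ![1, 0] 0 * L ![0, 1] 1 - L ![0, 1] 0 * L ![1, 0] 1

theorem vec_decomp (v : Fin 2 → ℂ) : v = v 0 • ![1, 0] + v 1 • ![0, 1] := by
  funext i
  fin_cases i <;> simp

theorem injective_iff_Jd (L : (Fin 2 → ℂ) →L[ℂ] (Fin 2 → ℂ)) :
    Function.Injective L ↔ Jd L ≠ 0 := by
  set u := L ![1, 0] with hu
  set w := L ![0, 1] with hw
  have hL : ∀ a b : ℂ, L (a • ![1, 0] + b • ![0, 1]) = a • u + b • w := by
    intro a b
    rw [map_add, map_smul, map_smul]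
  have hJ : Jd L = u 0 * w 1 - w 0 * u 1 := rfl
  have hvec0 : ∀ a b : ℂ, (a • ![1, 0] + b • ![0, 1] : Fin 2 → ℂ) = 0 → a = 0 ∧ b = 0 := by
    intro a b h
    have h0 := congrFun h 0
    have h1 := congrFun h 1
    simp at h0 h1
    exact ⟨h0, h1⟩
  constructor
  · intro hinj hJ0
    rw [hJ] at hJ0
    have key : ∀ a b : ℂ, a • u + b • w = 0 → a = 0 ∧ b = 0 := by
      intro a b h
      rw [← hL] at h
      exact hvec0 a b (hinj (h.trans (map_zero L).symm))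
    have h1 : (w 0) • u + (-u 0) • w = 0 := by
      funext i
      fin_cases i
      · simp; ring
      · simp
        linear_combination (-1 : ℂ) * hJ0
    have h2 : (w 1) • u + (-u 1) • w = 0 := by
      funext i
      fin_cases i
      · simp
        linear_combination hJ0
      · simp; ring
    have h3 := key _ _ h1
    have h4 := key _ _ h2
    have h5 : u = 0 := by
      funext i
      fin_cases i
      · simpa using h3.2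
      · simpa using h4.2
    have h6 := key 1 0 (by rw [h5]; simp)
    exact one_ne_zero h6.1
  · intro hJ0
    rw [injective_iff_map_eq_zero]
    intro v hv
    rw [vec_decomp v, hL] at hv
    have h0 := congrFun hv 0
    have h1 := congrFun hv 1
    simp only [Pi.add_apply, Pi.smul_apply, smul_eq_mul, Pi.zero_apply] at h0 h1
    rw [hJ] at hJ0
    have h2 : v 0 * (u 0 * w 1 - w 0 * u 1) = 0 := by
      linear_combination w 1 * h0 - w 0 * h1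
    have h3 : v 1 * (u 0 * w 1 - w 0 * u 1) = 0 := by
      linear_combination u 0 * h1 - u 1 * h0
    have h4 : v 0 = 0 := (mul_eq_zero.1 h2).resolve_right hJ0
    have h5 : v 1 = 0 := (mul_eq_zero.1 h3).resolve_right hJ0
    rw [vec_decomp v, h4, h5]
    simp

/-- the Jacobian of a holomorphic map is holomorphic -/
theorem differentiableOn_Jd {Ψ : (Fin 2 → ℂ) → (Fin 2 → ℂ)} {U : Set (Fin 2 → ℂ)} (hU : IsOpen U)
    (hΨ : DifferentiableOn ℂ Ψ U) : DifferentiableOn ℂ (fun y => Jd (fderiv ℂ Ψ y)) U := by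
  have h := fun v i => (differentiableOn_pi.1
    (Vale.Agent.P268.differentiableOn_fderiv_apply hU hΨ v)) i
  exact ((h _ 0).mul (h _ 1)).sub ((h _ 0).mul (h _ 1))

section

variable {M : Type*} [TopologicalSpace M] [ChartedSpace (Fin 2 → ℂ) M]

/-- the differential is injective -/
def Imm (Φ : M → (Fin 2 → ℂ)) (x : M) : Prop :=
  Function.Injective (mfderiv 𝓘(ℂ, Fin 2 → ℂ) 𝓘(ℂ, Fin 2 → ℂ) Φ x)

variable {Φ : M → (Fin 2 → ℂ)} {κ : OpenPartialHomeomorph M (Fin 2 → ℂ)}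

theorem imm_symm_iff (hκ : κ.MDifferentiable 𝓘(ℂ, Fin 2 → ℂ) 𝓘(ℂ, Fin 2 → ℂ)) {y : Fin 2 → ℂ}
    (hy : y ∈ κ.target)
    (hΦ : MDifferentiableAt 𝓘(ℂ, Fin 2 → ℂ) 𝓘(ℂ, Fin 2 → ℂ) Φ (κ.symm y)) :
    Imm Φ (κ.symm y) ↔ Function.Injective (fderiv ℂ (fun y => Φ (κ.symm y)) y) := by
  have h1 : mfderiv 𝓘(ℂ, Fin 2 → ℂ) 𝓘(ℂ, Fin 2 → ℂ) (Φ ∘ κ.symm) y =
      (mfderiv 𝓘(ℂ, Fin 2 → ℂ) 𝓘(ℂ, Fin 2 → ℂ) Φ (κ.symm y)).comp
        (mfderiv 𝓘(ℂ, Fin 2 → ℂ) 𝓘(ℂ, Fin 2 → ℂ) κ.symm y) :=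
    mfderiv_comp y hΦ (hκ.symm.mdifferentiableAt hy)
  have h2 : mfderiv 𝓘(ℂ, Fin 2 → ℂ) 𝓘(ℂ, Fin 2 → ℂ) (Φ ∘ κ.symm) y =
      fderiv ℂ (fun y => Φ (κ.symm y)) y := mfderiv_eq_fderiv
  have hb : Function.Bijective (mfderiv 𝓘(ℂ, Fin 2 → ℂ) 𝓘(ℂ, Fin 2 → ℂ) κ.symm y) :=
    hκ.symm.mfderiv_bijective hy
  rw [← h2, h1]
  exact (Function.Injective.of_comp_iff'
    (mfderiv 𝓘(ℂ, Fin 2 → ℂ) 𝓘(ℂ, Fin 2 → ℂ) Φ (κ.symm y)) hb).symm

theorem imm_iff (hκ : κ.MDifferentiable 𝓘(ℂ, Fin 2 → ℂ) 𝓘(ℂ, Fin 2 → ℂ)) {x : M}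
    (hx : x ∈ κ.source) (hΦ : MDifferentiableAt 𝓘(ℂ, Fin 2 → ℂ) 𝓘(ℂ, Fin 2 → ℂ) Φ x) :
    Imm Φ x ↔ Function.Injective (fderiv ℂ (fun y => Φ (κ.symm y)) (κ x)) := by
  have h := imm_symm_iff (Φ := Φ) hκ (κ.map_source hx) (by rwa [κ.left_inv hx])
  rwa [κ.left_inv hx] at h

theorem differentiableAt_symm (hκ : κ.MDifferentiable 𝓘(ℂ, Fin 2 → ℂ) 𝓘(ℂ, Fin 2 → ℂ))
    {y : Fin 2 → ℂ} (hy : y ∈ κ.target)
    (hΦ : MDifferentiableAt 𝓘(ℂ, Fin 2 → ℂ) 𝓘(ℂ, Fin 2 → ℂ) Φ (κ.symm y)) :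
    DifferentiableAt ℂ (fun y => Φ (κ.symm y)) y :=
  mdifferentiableAt_iff_differentiableAt.1
    (MDifferentiableAt.comp (I' := 𝓘(ℂ, Fin 2 → ℂ)) (g := Φ) (f := κ.symm) y hΦ
      (hκ.symm.mdifferentiableAt hy))

/-- inverse function theorem -/
theorem exists_local (hκ : κ.MDifferentiable 𝓘(ℂ, Fin 2 → ℂ) 𝓘(ℂ, Fin 2 → ℂ)) {x : M}
    (hx : x ∈ κ.source)
    (hΦ : ∀ᶠ z in 𝓝 x, MDifferentiableAt 𝓘(ℂ, Fin 2 → ℂ) 𝓘(ℂ, Fin 2 → ℂ) Φ z) (hi : Imm Φ x)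
    {O : Set M} (hO : O ∈ 𝓝 x) :
    ∃ φ : OpenPartialHomeomorph M (Fin 2 → ℂ), x ∈ φ.source ∧ φ.source ⊆ O ∧
      (∀ z ∈ φ.source, φ z = Φ z) ∧ φ.MDifferentiable 𝓘(ℂ, Fin 2 → ℂ) 𝓘(ℂ, Fin 2 → ℂ) := by
  have h1 : ∀ᶠ z in 𝓝 x, z ∈ O ∧ MDifferentiableAt 𝓘(ℂ, Fin 2 → ℂ) 𝓘(ℂ, Fin 2 → ℂ) Φ z :=
    Filter.Eventually.and (show ∀ᶠ z in 𝓝 x, z ∈ O from hO) hΦ
  have ht : Tendsto κ.symm (𝓝 (κ x)) (𝓝 x) := by
    have := (κ.continuousAt_symm (κ.map_source hx)).tendsto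
    rwa [κ.left_inv hx] at this
  have h2 := (ht.eventually h1).and (κ.open_target.mem_nhds (κ.map_source hx))
  obtain ⟨U, hUs, hUo, hxU⟩ := _root_.mem_nhds_iff.1 h2
  have hΨ : DifferentiableOn ℂ (fun y => Φ (κ.symm y)) U := fun y hy =>
    (differentiableAt_symm hκ (hUs hy).2 (hUs hy).1.2).differentiableWithinAt
  have hinj := (imm_iff hκ hx hΦ.self_of_nhds).1 hi
  set A : (Fin 2 → ℂ) ≃L[ℂ] (Fin 2 → ℂ) :=
    (LinearEquiv.ofInjectiveOfFinrankEq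
      (fderiv ℂ (fun y => Φ (κ.symm y)) (κ x)).toLinearMap hinj rfl).toContinuousLinearEquiv with hA
  have hAd : HasFDerivAt (fun y => Φ (κ.symm y)) (A : (Fin 2 → ℂ) →L[ℂ] (Fin 2 → ℂ)) (κ x) := by
    have h3 : (A : (Fin 2 → ℂ) →L[ℂ] (Fin 2 → ℂ)) = fderiv ℂ (fun y => Φ (κ.symm y)) (κ x) := by
      ext v i
      rfl
    rw [h3]
    exact (hΨ.differentiableAt (hUo.mem_nhds hxU)).hasFDerivAt
  obtain ⟨ψ, hψx, hψU, hψ, hψd, hψd'⟩ :=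
    Vale.Agent.P267.H62.exists_homeo hUo hxU hΨ hAd
  refine ⟨κ.trans ψ, ?_, ?_, ?_, ?_⟩
  · simp [hx, hψx]
  · intro z hz
    have hz' : z ∈ κ.source ∧ κ z ∈ ψ.source := by simpa using hz
    have h4 := (hUs (hψU hz'.2)).1.1
    rwa [κ.left_inv hz'.1] at h4
  · intro z hz
    have hz' : z ∈ κ.source ∧ κ z ∈ ψ.source := by simpa using hz
    change ψ (κ z) = Φ z
    rw [hψ, κ.left_inv hz'.1]
  · refine OpenPartialHomeomorph.MDifferentiable.trans hκ ⟨?_, ?_⟩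
    · exact mdifferentiableOn_iff_differentiableOn.2 hψd
    · exact mdifferentiableOn_iff_differentiableOn.2 hψd'

variable [IsManifold 𝓘(ℂ, Fin 2 → ℂ) 1 M]

theorem chart_mdiff (x : M) :
    (chartAt (Fin 2 → ℂ) x).MDifferentiable 𝓘(ℂ, Fin 2 → ℂ) 𝓘(ℂ, Fin 2 → ℂ) :=
  mdifferentiable_chart x

/-- the degenerate points of `Φ` are locally the zeros of a holomorphic function -/
theorem exists_eqn {p : M}
    (hΦ : ∀ᶠ z in 𝓝 p, MDifferentiableAt 𝓘(ℂ, Fin 2 → ℂ) 𝓘(ℂ, Fin 2 → ℂ) Φ z) :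
    ∃ g : M → ℂ, (∀ᶠ x in 𝓝 p, MDifferentiableAt 𝓘(ℂ, Fin 2 → ℂ) 𝓘(ℂ, ℂ) g x) ∧
      ∀ᶠ x in 𝓝 p, (¬ Imm Φ x ↔ g x = 0) := by
  set κ := chartAt (Fin 2 → ℂ) p with hκ'
  have hκ : κ.MDifferentiable 𝓘(ℂ, Fin 2 → ℂ) 𝓘(ℂ, Fin 2 → ℂ) := chart_mdiff p
  have hp : p ∈ κ.source := mem_chart_source _ p
  have ht : Tendsto κ.symm (𝓝 (κ p)) (𝓝 p) := by
    have := (κ.continuousAt_symm (κ.map_source hp)).tendsto
    rwa [κ.left_inv hp] at this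
  have h2 := (ht.eventually hΦ).and (κ.open_target.mem_nhds (κ.map_source hp))
  obtain ⟨U, hUs, hUo, hpU⟩ := _root_.mem_nhds_iff.1 h2
  have hΨ : DifferentiableOn ℂ (fun y => Φ (κ.symm y)) U := fun y hy =>
    (differentiableAt_symm hκ (hUs hy).2 (hUs hy).1).differentiableWithinAt
  have hJ := differentiableOn_Jd hUo hΨ
  refine ⟨fun x => Jd (fderiv ℂ (fun y => Φ (κ.symm y)) (κ x)), ?_, ?_⟩
  · filter_upwards [κ.open_source.mem_nhds hp,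
      (κ.continuousAt hp).tendsto.eventually (hUo.mem_nhds hpU)] with x hx hxU
    exact MDifferentiableAt.comp (I' := 𝓘(ℂ, Fin 2 → ℂ))
      (g := fun y => Jd (fderiv ℂ (fun y => Φ (κ.symm y)) y)) (f := κ) x
      (mdifferentiableAt_iff_differentiableAt.2 (hJ.differentiableAt (hUo.mem_nhds hxU)))
      (hκ.mdifferentiableAt hx)
  · filter_upwards [κ.open_source.mem_nhds hp, hΦ] with x hx hxΦ
    rw [imm_iff hκ hx hxΦ, injective_iff_Jd, not_not]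

end

end Vale.Agent.P267.H701
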