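import Vale.Agent.P267.H701.Conn
import Vale.Agent.P267.H701.Imm
import Vale.Agent.P267.H670.Deg

/-! P267 / H701 (helper701), package G-DEG1: a holomorphic map `Φ` from an open set `Ω` of a complex
surface to a connected open set `V` of the plane which is proper over `V`, has a dense set of
immersive points and one immersive point alone in its fibre is biholomorphic over the complement of
a countable relatively closed subset of `V`. -/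

open Set Filter Topology Metric
open scoped Manifold ContDiff

namespace Vale.Agent.P267.H701

open Vale.Agent.P267.H331

section

variable {M : Type*} [TopologicalSpace M] [ChartedSpace (Fin 2 → ℂ) M]

/-- `Φ` is proper over `V`, generically immersive, and one immersive point is alone in its
fibre -/
structure Deg (Φ : M → (Fin 2 → ℂ)) (Ω : Set M) (V : Set (Fin 2 → ℂ)) : Prop where
  open_dom : IsOpen Ω
  md : ∀ x ∈ Ω, MDifferentiableAt 𝓘(ℂ, Fin 2 → ℂ) 𝓘(ℂ, Fin 2 → ℂ) Φ x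
  dense : ∀ x ∈ Ω, ∃ᶠ y in 𝓝 x, Imm Φ y
  open_cod : IsOpen V
  pre : IsPreconnected V
  proper : ∀ K ⊆ V, IsCompact K → IsCompact (Ω ∩ Φ ⁻¹' K)
  one : ∃ w ∈ Ω, Φ w ∈ V ∧ Imm Φ w ∧ ∀ x ∈ Ω, Φ x = Φ w → x = w

/-- the degenerate points over `V` -/
def Bad (Φ : M → (Fin 2 → ℂ)) (Ω : Set M) (V : Set (Fin 2 → ℂ)) : Set M :=
  {x | x ∈ Ω ∧ Φ x ∈ V ∧ ¬ Imm Φ x}

namespace Deg

variable {Φ : M → (Fin 2 → ℂ)} {Ω : Set M} {V : Set (Fin 2 → ℂ)}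

theorem cont (h : Deg Φ Ω V) : ContinuousOn Φ Ω :=
  fun x hx => (h.md x hx).continuousAt.continuousWithinAt

theorem isOpen_part (h : Deg Φ Ω V) {W : Set (Fin 2 → ℂ)} (hW : IsOpen W) :
    IsOpen (Ω ∩ Φ ⁻¹' W) :=
  h.cont.isOpen_inter_preimage h.open_dom hW

theorem md_nhds (h : Deg Φ Ω V) {x : M} (hx : x ∈ Ω) :
    ∀ᶠ z in 𝓝 x, MDifferentiableAt 𝓘(ℂ, Fin 2 → ℂ) 𝓘(ℂ, Fin 2 → ℂ) Φ z := by
  filter_upwards [h.open_dom.mem_nhds hx] with z hz using h.md z hz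

theorem image_bad_sub : Φ '' Bad Φ Ω V ⊆ V := by
  rintro _ ⟨x, hx, rfl⟩
  exact hx.2.1

/-- the image of a relatively closed subset is relatively closed -/
theorem isOpen_diff_image (h : Deg Φ Ω V) {F : Set M}
    (hF : ∀ x ∈ Ω, Φ x ∈ V → x ∉ F → ∀ᶠ y in 𝓝 x, y ∉ F) (hFs : F ⊆ Ω ∩ Φ ⁻¹' V) :
    IsOpen (V \ Φ '' F) := by
  rw [isOpen_iff_mem_nhds]
  rintro u ⟨huV, huF⟩
  obtain ⟨K, hK, huK, hKV⟩ := exists_compact_subset h.open_cod huV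
  have hN : IsOpen {x : M | ∀ᶠ y in 𝓝 x, y ∉ F} := isOpen_setOfPred_eventually_nhds
  have heq : F ∩ Φ ⁻¹' K = (Ω ∩ Φ ⁻¹' K) \ {x : M | ∀ᶠ y in 𝓝 x, y ∉ F} := by
    ext x
    constructor
    · rintro ⟨hx1, hx2⟩
      exact ⟨⟨(hFs hx1).1, hx2⟩, fun hx3 => (Filter.Eventually.self_of_nhds hx3) hx1⟩
    · rintro ⟨⟨hx1, hx2⟩, hx3⟩
      refine ⟨?_, hx2⟩
      by_contra hcon
      exact hx3 (hF x hx1 (hKV hx2) hcon)
  have hc : IsCompact (F ∩ Φ ⁻¹' K) := by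
    rw [heq]
    exact (h.proper K hKV hK).diff hN
  have hc2 : IsCompact (Φ '' (F ∩ Φ ⁻¹' K)) :=
    hc.image_of_continuousOn (h.cont.mono fun x hx => (hFs hx.1).1)
  have hu : u ∉ Φ '' (F ∩ Φ ⁻¹' K) := fun hcon => huF (image_mono inter_subset_left hcon)
  filter_upwards [hc2.isClosed.isOpen_compl.mem_nhds hu, mem_interior_iff_mem_nhds.1 huK]
    with w hw1 hw2
  refine ⟨hKV hw2, ?_⟩
  rintro ⟨x, hx, rfl⟩
  exact hw1 ⟨x, ⟨hx, hw2⟩, rfl⟩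

variable [IsManifold 𝓘(ℂ, Fin 2 → ℂ) 1 M]

theorem imm_nhds (h : Deg Φ Ω V) {x : M} (hx : x ∈ Ω) (hi : Imm Φ x) :
    ∀ᶠ y in 𝓝 x, Imm Φ y := by
  obtain ⟨g, hg, hiff⟩ := exists_eqn (h.md_nhds hx)
  have h1 : g x ≠ 0 := fun h0 => (hiff.self_of_nhds.2 h0) hi
  have h2 : ContinuousAt g x := hg.self_of_nhds.continuousAt
  filter_upwards [h2.eventually_ne h1, hiff] with y hy1 hy2
  by_contra hcon
  exact hy1 (hy2.1 hcon)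

theorem isOpen_good (h : Deg Φ Ω V) : IsOpen (V \ Φ '' Bad Φ Ω V) := by
  refine h.isOpen_diff_image ?_ (fun x hx => ⟨hx.1, hx.2.1⟩)
  intro x hx hxV hxB
  have hi : Imm Φ x := by
    by_contra hcon
    exact hxB ⟨hx, hxV, hcon⟩
  filter_upwards [h.imm_nhds hx hi] with y hy hyB using hyB.2.2 hy

omit [IsManifold 𝓘(ℂ, Fin 2 → ℂ) 1 M] in
theorem imm_of_good (_h : Deg Φ Ω V) {x : M} (hx : x ∈ Ω) (hxV : Φ x ∈ V \ Φ '' Bad Φ Ω V) :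
    Imm Φ x := by
  by_contra hcon
  exact hxV.2 ⟨x, ⟨hx, hxV.1, hcon⟩, rfl⟩

/-- local inverse at an immersive point -/
theorem loc (h : Deg Φ Ω V) {x : M} (hx : x ∈ Ω) (hi : Imm Φ x) {O : Set M} (hO : O ∈ 𝓝 x) :
    ∃ φ : OpenPartialHomeomorph M (Fin 2 → ℂ), x ∈ φ.source ∧ φ.source ⊆ O ∧
      (∀ z ∈ φ.source, φ z = Φ z) ∧ φ.MDifferentiable 𝓘(ℂ, Fin 2 → ℂ) 𝓘(ℂ, Fin 2 → ℂ) :=
  exists_local (chart_mdiff x) (mem_chart_source _ x) (h.md_nhds hx) hi hO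

theorem countable_bad_sing [SecondCountableTopology M] (h : Deg Φ Ω V) :
    (Bad Φ Ω V \ Reg (Bad Φ Ω V)).Countable := by
  refine Vale.Agent.P267.H535.countable_sing ?_
  intro p hp
  obtain ⟨g, hg, hiff⟩ := exists_eqn (h.md_nhds hp.1)
  refine ⟨g, hg, ?_, ?_⟩
  · filter_upwards [hiff, (h.isOpen_part h.open_cod).mem_nhds ⟨hp.1, hp.2.1⟩] with x hx1 hx2
    rw [← hx1]
    exact ⟨fun h1 => h1.2.2, fun h1 => ⟨hx2.1, hx2.2, h1⟩⟩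
  · refine ((h.dense p hp.1).and_eventually hiff).mono ?_
    rintro x ⟨hx1, hx2⟩ h0
    exact hx2.2 h0 hx1

omit [IsManifold 𝓘(ℂ, Fin 2 → ℂ) 1 M] in
/-- a small ball in a regular chart of the bad set -/
theorem exists_rad (h : Deg Φ Ω V) {q : M} {κ : OpenPartialHomeomorph M (Fin 2 → ℂ)}
    (hκ : RegChart (Bad Φ Ω V) q κ) :
    ∃ r > 0, ball (0 : Fin 2 → ℂ) r ⊆ κ.target ∧
      ∀ y ∈ ball (0 : Fin 2 → ℂ) r, κ.symm y ∈ Ω ∧ Φ (κ.symm y) ∈ V := by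
  have hq : q ∈ Bad Φ Ω V := hκ.mem_Z
  have h1 : ∀ᶠ y in 𝓝 (0 : Fin 2 → ℂ), κ.symm y ∈ Ω ∩ Φ ⁻¹' V := by
    have ht : Tendsto κ.symm (𝓝 (0 : Fin 2 → ℂ)) (𝓝 q) := by
      have := (κ.continuousAt_symm hκ.zero_mem).tendsto
      rwa [hκ.symm_zero] at this
    exact ht ((h.isOpen_part h.open_cod).mem_nhds ⟨hq.1, hq.2.1⟩)
  obtain ⟨r, hr, hrs⟩ := Metric.eventually_nhds_iff_ball.1
    (h1.and (κ.open_target.mem_nhds hκ.zero_mem))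
  exact ⟨r, hr, fun y hy => (hrs y hy).2, fun y hy => (hrs y hy).1⟩

omit [IsManifold 𝓘(ℂ, Fin 2 → ℂ) 1 M] in
theorem cover [SecondCountableTopology M] (h : Deg Φ Ω V) :
    ∃ t ⊆ Reg (Bad Φ Ω V), t.Countable ∧ ∃ (κ : M → OpenPartialHomeomorph M (Fin 2 → ℂ))
      (r : M → ℝ), (∀ q ∈ t, RegChart (Bad Φ Ω V) q (κ q) ∧ 0 < r q ∧
        ball (0 : Fin 2 → ℂ) (r q) ⊆ (κ q).target ∧
        ∀ y ∈ ball (0 : Fin 2 → ℂ) (r q), (κ q).symm y ∈ Ω ∧ Φ ((κ q).symm y) ∈ V) ∧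
      Reg (Bad Φ Ω V) ⊆ ⋃ q ∈ t, dsc (κ q) '' ball (0 : ℂ) (r q) := by
  classical
  have hex : ∀ q : M, ∃ (κ : OpenPartialHomeomorph M (Fin 2 → ℂ)) (r : ℝ),
      q ∈ Reg (Bad Φ Ω V) → RegChart (Bad Φ Ω V) q κ ∧ 0 < r ∧
        ball (0 : Fin 2 → ℂ) r ⊆ κ.target ∧
        ∀ y ∈ ball (0 : Fin 2 → ℂ) r, κ.symm y ∈ Ω ∧ Φ (κ.symm y) ∈ V := by
    intro q
    by_cases hq : q ∈ Reg (Bad Φ Ω V)
    · obtain ⟨κ, hκ⟩ := hq
      obtain ⟨r, hr, h1, h2⟩ := h.exists_rad hκ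
      exact ⟨κ, r, fun _ => ⟨hκ, hr, h1, h2⟩⟩
    · exact ⟨chartAt _ q, 0, fun hq' => absurd hq' hq⟩
  choose κ r hκr using hex
  obtain ⟨t, htR, htc, hcov⟩ := TopologicalSpace.countable_cover_nhdsWithin
    (s := Reg (Bad Φ Ω V)) (f := fun q => dsc (κ q) '' ball (0 : ℂ) (r q)) (by
      intro q hq
      obtain ⟨h1, h2, h3, h4⟩ := hκr q hq
      rw [mem_nhdsWithin_iff_eventually]
      filter_upwards [h1.nhds_sub h2] with x hx hxR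
      have h5 := hx.2.2 (Reg_sub hxR)
      exact ⟨κ q x 1, h5.2, h5.1.symm⟩)
  exact ⟨t, htR, htc, κ, r, fun q hq => hκr q (htR hq), hcov⟩

omit [IsManifold 𝓘(ℂ, Fin 2 → ℂ) 1 M] in
theorem md_dsc (h : Deg Φ Ω V) {q : M} {κ : OpenPartialHomeomorph M (Fin 2 → ℂ)}
    (hκ : RegChart (Bad Φ Ω V) q κ) {r : ℝ} (hr : ball (0 : Fin 2 → ℂ) r ⊆ κ.target)
    (hrO : ∀ y ∈ ball (0 : Fin 2 → ℂ) r, κ.symm y ∈ Ω ∧ Φ (κ.symm y) ∈ V) :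
    DifferentiableOn ℂ (fun y => Φ (κ.symm y)) (ball (0 : Fin 2 → ℂ) r) := fun y hy =>
  (differentiableAt_symm (κ := κ) ⟨hκ.hol, hκ.holSymm⟩ (hr hy)
    (h.md _ (hrO y hy).1)).differentiableWithinAt

theorem thin [SecondCountableTopology M] (h : Deg Φ Ω V) : Thin (Φ '' Bad Φ Ω V) := by
  obtain ⟨t, htR, htc, κ, r, hκr, hcov⟩ := h.cover
  have h1 : Thin (Φ '' (Bad Φ Ω V \ Reg (Bad Φ Ω V))) :=
    thin_countable (h.countable_bad_sing.image Φ)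
  have h2 : Thin (Φ '' Reg (Bad Φ Ω V)) := by
    rcases t.eq_empty_or_nonempty with rfl | hne
    · have h3 : Reg (Bad Φ Ω V) = ∅ := by
        rw [← subset_empty_iff]
        simpa using hcov
      rw [h3, image_empty]
      exact thin_countable countable_empty
    obtain ⟨f, hf⟩ := htc.exists_eq_range hne
    have hft : ∀ k, f k ∈ t := fun k => by
      rw [hf]
      exact ⟨k, rfl⟩
    refine ⟨ℕ, inferInstance, fun k s => Φ (dsc (κ (f k)) s), fun k => ball (0 : ℂ) (r (f k)),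
      fun k => convex_ball _ _, fun k => ?_, ?_⟩
    · obtain ⟨h3, h4, h5, h6⟩ := hκr _ (hft k)
      have h7 := h.md_dsc h3 h5 h6
      have h8 : DifferentiableOn ℂ (fun s : ℂ => Φ (dsc (κ (f k)) s)) (ball (0 : ℂ) (r (f k))) := by
        have h9 : Differentiable ℂ (fun s : ℂ => (![0, s] : Fin 2 → ℂ)) := by
          refine differentiable_pi.2 fun i => ?_
          fin_cases i
          · exact differentiable_const _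
          · exact differentiable_id
        exact DifferentiableOn.comp (g := fun y => Φ ((κ (f k)).symm y))
          (f := fun s : ℂ => (![0, s] : Fin 2 → ℂ)) (t := ball (0 : Fin 2 → ℂ) (r (f k))) h7
          h9.differentiableOn (fun s hs => vec_mem_ball hs)
      exact (h8.contDiffOn isOpen_ball).restrict_scalars ℝ
    · rintro _ ⟨x, hx, rfl⟩
      obtain ⟨q, hq, s, hs, rfl⟩ := mem_iUnion₂.1 (hcov hx)
      rw [hf] at hq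
      obtain ⟨k, rfl⟩ := hq
      exact mem_iUnion.2 ⟨k, s, hs, rfl⟩
  refine (h1.union h2).mono ?_
  rintro _ ⟨x, hx, rfl⟩
  by_cases hR : x ∈ Reg (Bad Φ Ω V)
  · exact Or.inr ⟨x, hR, rfl⟩
  · exact Or.inl ⟨x, ⟨hx, hR⟩, rfl⟩

theorem three_lt : 3 < Module.finrank ℝ (Fin 2 → ℂ) := by
  have h1 : Module.finrank ℝ (Fin 2 → ℂ) = 4 := by
    rw [Module.finrank_pi_fintype]
    simp
  omega

variable [T2Space M] [SecondCountableTopology M]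

theorem bij (h : Deg Φ Ω V) :
    BijOn Φ (Ω ∩ Φ ⁻¹' (V \ Φ '' Bad Φ Ω V)) (V \ Φ '' Bad Φ Ω V) := by
  obtain ⟨w, hw, hwV, hwi, hw1⟩ := h.one
  have hgood : Φ w ∈ V \ Φ '' Bad Φ Ω V := by
    refine ⟨hwV, ?_⟩
    rintro ⟨x, hx, hxw⟩
    have := hw1 x hx.1 hxw
    subst this
    exact hx.2.2 hwi
  refine (Vale.Agent.P267.H670.bijOn_of_proper (P := Φ) (h.isOpen_part h.isOpen_good)
    h.isOpen_good (isPreconnected_diff three_lt h.thin h.open_cod h.pre) (fun x hx => hx.2)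
    ?_ ?_ (w₀ := w) ⟨hw, hgood⟩ (fun x hx => hw1 x hx.1)).1
  · refine IsLocalHomeomorphOn.mk Φ _ fun x hx => ?_
    obtain ⟨φ, h1, h2, h3, h4⟩ := h.loc hx.1 (h.imm_of_good hx.1 hx.2) univ_mem
    exact ⟨φ, h1, fun z hz => (h3 z hz).symm⟩
  · intro K hK hKc
    have h1 := h.proper K (hK.trans sdiff_subset) hKc
    convert h1 using 1
    ext x
    constructor
    · rintro ⟨hx1, hx2⟩
      exact ⟨hx1.1, hx2⟩
    · rintro ⟨hx1, hx2⟩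
      exact ⟨⟨hx1, hK hx2⟩, hx2⟩

/-- two immersive points of a fibre are equal -/
theorem inj (h : Deg Φ Ω V) {x₁ x₂ : M} (h₁ : x₁ ∈ Ω) (h₂ : x₂ ∈ Ω) (hi₁ : Imm Φ x₁)
    (hi₂ : Imm Φ x₂) (hV : Φ x₁ ∈ V) (heq : Φ x₁ = Φ x₂) : x₁ = x₂ := by
  by_contra hne
  obtain ⟨N₁, N₂, hN₁, hN₂, hx₁, hx₂, hd⟩ := t2_separation hne
  obtain ⟨φ₁, ha₁, hb₁, hc₁, -⟩ := h.loc h₁ hi₁ (inter_mem (hN₁.mem_nhds hx₁)
    ((h.isOpen_part h.open_cod).mem_nhds ⟨h₁, hV⟩))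
  obtain ⟨φ₂, ha₂, hb₂, hc₂, -⟩ := h.loc h₂ hi₂ (inter_mem (hN₂.mem_nhds hx₂)
    ((h.isOpen_part h.open_cod).mem_nhds ⟨h₂, by rw [mem_preimage, ← heq]; exact hV⟩))
  have hu1 : Φ x₁ ∈ φ₁.target := by
    rw [← hc₁ _ ha₁]
    exact φ₁.map_source ha₁
  have hu2 : Φ x₁ ∈ φ₂.target := by
    rw [heq, ← hc₂ _ ha₂]
    exact φ₂.map_source ha₂
  obtain ⟨w, hwS, hw⟩ := (dense_compl_thin three_lt h.thin).exists_mem_open
    (φ₁.open_target.inter φ₂.open_target) ⟨Φ x₁, hu1, hu2⟩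
  have hy₁ := φ₁.map_target hw.1
  have hy₂ := φ₂.map_target hw.2
  have e₁ : Φ (φ₁.symm w) = w := by rw [← hc₁ _ hy₁, φ₁.right_inv hw.1]
  have e₂ : Φ (φ₂.symm w) = w := by rw [← hc₂ _ hy₂, φ₂.right_inv hw.2]
  have m₁ := hb₁ hy₁
  have m₂ := hb₂ hy₂
  have hwV : w ∈ V := by
    have := m₁.2.2
    rwa [mem_preimage, e₁] at this
  have n₁ : φ₁.symm w ∈ Ω ∩ Φ ⁻¹' (V \ Φ '' Bad Φ Ω V) :=
    ⟨m₁.2.1, by rw [mem_preimage, e₁]; exact ⟨hwV, hwS⟩⟩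
  have n₂ : φ₂.symm w ∈ Ω ∩ Φ ⁻¹' (V \ Φ '' Bad Φ Ω V) :=
    ⟨m₂.2.1, by rw [mem_preimage, e₂]; exact ⟨hwV, hwS⟩⟩
  have h5 := h.bij.injOn n₁ n₂ (e₁.trans e₂.symm)
  refine disjoint_left.1 hd m₁.1 ?_
  rw [h5]
  exact m₂.1

/-- `Φ` is constant on the discs of the bad set -/
theorem const_dsc (h : Deg Φ Ω V) {q : M} {κ : OpenPartialHomeomorph M (Fin 2 → ℂ)}
    (hκ : RegChart (Bad Φ Ω V) q κ) {r : ℝ} (hr : ball (0 : Fin 2 → ℂ) r ⊆ κ.target)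
    (hrO : ∀ y ∈ ball (0 : Fin 2 → ℂ) r, κ.symm y ∈ Ω ∧ Φ (κ.symm y) ∈ V) {t : ℂ}
    (ht : t ∈ ball (0 : ℂ) r) : Φ (dsc κ t) = Φ q := by
  by_contra hcon
  have hmd : κ.MDifferentiable 𝓘(ℂ, Fin 2 → ℂ) 𝓘(ℂ, Fin 2 → ℂ) := ⟨hκ.hol, hκ.holSymm⟩
  have hiff : ∀ y ∈ ball (0 : Fin 2 → ℂ) r, (¬ Imm Φ (κ.symm y) ↔ y 0 = 0) := by
    intro y hy
    have h1 := hκ.iff (κ.symm y) (κ.map_target (hr hy))
    rw [κ.right_inv (hr hy)] at h1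
    rw [← h1]
    exact ⟨fun h2 => ⟨(hrO y hy).1, (hrO y hy).2, h2⟩, fun h2 => h2.2.2⟩
  obtain ⟨y₁, hy₁, y₂, hy₂, hne, h1, h2, h3⟩ := flat_two (Ψ := fun y => Φ (κ.symm y)) (r := r)
    (h.md_dsc hκ hr hrO) (by
      intro y hy
      rw [← hiff y hy, imm_symm_iff hmd (hr hy) (h.md _ (hrO y hy).1)])
    ⟨t, mem_ball_zero_iff.1 ht, by
      rw [hκ.symm_zero]
      exact hcon⟩
  have hi₁ : Imm Φ (κ.symm y₁) := by
    by_contra h4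
    exact h1 ((hiff y₁ hy₁).1 h4)
  have hi₂ : Imm Φ (κ.symm y₂) := by
    by_contra h4
    exact h2 ((hiff y₂ hy₂).1 h4)
  have h4 := h.inj (hrO y₁ hy₁).1 (hrO y₂ hy₂).1 hi₁ hi₂ (hrO y₁ hy₁).2 h3
  exact hne (κ.symm.injOn (hr hy₁) (hr hy₂) h4)

/-- the bad values are countable -/
theorem countable_bad (h : Deg Φ Ω V) : (Φ '' Bad Φ Ω V).Countable := by
  obtain ⟨t, htR, htc, κ, r, hκr, hcov⟩ := h.cover
  refine ((h.countable_bad_sing.image Φ).union (htc.image Φ)).mono ?_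
  rintro _ ⟨x, hx, rfl⟩
  by_cases hR : x ∈ Reg (Bad Φ Ω V)
  · obtain ⟨q, hq, s, hs, rfl⟩ := mem_iUnion₂.1 (hcov hR)
    obtain ⟨h3, h4, h5, h6⟩ := hκr q hq
    exact Or.inr ⟨q, hq, (h.const_dsc h3 h5 h6 hs).symm⟩
  · exact Or.inl ⟨x, ⟨hx, hR⟩, rfl⟩

/-- surjectivity -/
theorem surj (h : Deg Φ Ω V) {u : Fin 2 → ℂ} (hu : u ∈ V) : ∃ x ∈ Ω, Φ x = u := by
  obtain ⟨K, hK, huK, hKV⟩ := exists_compact_subset h.open_cod hu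
  have hc : IsCompact (Φ '' (Ω ∩ Φ ⁻¹' K)) :=
    (h.proper K hKV hK).image_of_continuousOn (h.cont.mono inter_subset_left)
  have h1 : u ∈ closure (Φ '' (Ω ∩ Φ ⁻¹' K)) := by
    rw [_root_.mem_closure_iff]
    intro W hW huW
    obtain ⟨w, hwS, hw⟩ := (dense_compl_thin three_lt h.thin).exists_mem_open
      (hW.inter isOpen_interior) ⟨u, huW, huK⟩
    obtain ⟨x, hx, hxw⟩ := h.bij.surjOn ⟨hKV (interior_subset hw.2), hwS⟩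
    refine ⟨w, hw.1, x, ⟨hx.1, ?_⟩, hxw⟩
    rw [mem_preimage, hxw]
    exact interior_subset hw.2
  rw [hc.isClosed.closure_eq] at h1
  obtain ⟨x, hx, hxu⟩ := h1
  exact ⟨x, hx.1, hxu⟩

end Deg

/-- **G-DEG1** -/
theorem deg_one [IsManifold 𝓘(ℂ, Fin 2 → ℂ) 1 M] [T2Space M] [SecondCountableTopology M]
    {Φ : M → (Fin 2 → ℂ)} {Ω : Set M} {V : Set (Fin 2 → ℂ)} (h : Deg Φ Ω V) :
    ∃ S ⊆ V, S.Countable ∧ IsOpen (V \ S) ∧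
      (∀ u ∈ V, ∃ x ∈ Ω, Φ x = u) ∧
      (∀ u, u ∈ S ↔ ∃ x ∈ Ω, Φ x ∈ V ∧ ¬ Imm Φ x ∧ Φ x = u) ∧
      (∀ x₁ ∈ Ω, ∀ x₂ ∈ Ω, Imm Φ x₁ → Imm Φ x₂ → Φ x₁ ∈ V → Φ x₁ = Φ x₂ → x₁ = x₂) ∧
      BijOn Φ (Ω ∩ Φ ⁻¹' (V \ S)) (V \ S) ∧
      ∃ Θ : (Fin 2 → ℂ) → M,
        (∀ u ∈ V \ S, Θ u ∈ Ω ∧ Φ (Θ u) = u ∧ Imm Φ (Θ u) ∧
          MDifferentiableAt 𝓘(ℂ, Fin 2 → ℂ) 𝓘(ℂ, Fin 2 → ℂ) Θ u) ∧
        ∀ x ∈ Ω, Φ x ∈ V \ S → Θ (Φ x) = x := by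
  classical
  obtain ⟨w, hw, -⟩ := h.one
  have : Nonempty M := ⟨w⟩
  refine ⟨Φ '' Bad Φ Ω V, Deg.image_bad_sub, h.countable_bad, h.isOpen_good,
    fun u hu => h.surj hu, ?_, fun x₁ h₁ x₂ h₂ i₁ i₂ hV he => h.inj h₁ h₂ i₁ i₂ hV he, h.bij, ?_⟩
  · intro u
    constructor
    · rintro ⟨x, hx, rfl⟩
      exact ⟨x, hx.1, hx.2.1, hx.2.2, rfl⟩
    · rintro ⟨x, hx1, hx2, hx3, rfl⟩
      exact ⟨x, ⟨hx1, hx2, hx3⟩, rfl⟩
  set Θ : (Fin 2 → ℂ) → M := Function.invFunOn Φ (Ω ∩ Φ ⁻¹' (V \ Φ '' Bad Φ Ω V)) with hΘ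
  have hm : ∀ u ∈ V \ Φ '' Bad Φ Ω V, Θ u ∈ Ω ∩ Φ ⁻¹' (V \ Φ '' Bad Φ Ω V) ∧ Φ (Θ u) = u := by
    intro u hu
    have hex : ∃ a ∈ Ω ∩ Φ ⁻¹' (V \ Φ '' Bad Φ Ω V), Φ a = u := h.bij.surjOn hu
    exact ⟨Function.invFunOn_mem hex, Function.invFunOn_eq hex⟩
  have hinv : ∀ x ∈ Ω, Φ x ∈ V \ Φ '' Bad Φ Ω V → Θ (Φ x) = x := by
    intro x hx hxV
    have h1 := hm _ hxV
    exact h.bij.injOn h1.1 ⟨hx, hxV⟩ h1.2
  refine ⟨Θ, ?_, hinv⟩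
  intro u hu
  obtain ⟨h1, h2⟩ := hm u hu
  have hi : Imm Φ (Θ u) := h.imm_of_good h1.1 h1.2
  refine ⟨h1.1, h2, hi, ?_⟩
  obtain ⟨φ, ha, hb, hc, hd⟩ := h.loc h1.1 hi
    ((h.isOpen_part h.isOpen_good).mem_nhds h1)
  have hu2 : u ∈ φ.target := by
    have := φ.map_source ha
    rwa [hc _ ha, h2] at this
  have h3 : Θ =ᶠ[𝓝 u] φ.symm := by
    filter_upwards [φ.open_target.mem_nhds hu2] with v hv
    have h4 := φ.map_target hv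
    have h5 := hb h4
    have h6 : Φ (φ.symm v) = v := by rw [← hc _ h4, φ.right_inv hv]
    have h7 := hinv _ h5.1 h5.2
    rwa [h6] at h7
  exact (hd.symm.mdifferentiableAt hu2).congr_of_eventuallyEq h3

end

end Vale.Agent.P267.H701
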