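import Vale.Agent.P267.H701.Deg1
import Vale.Agent.P267.H175.Thin

/-! P267 / H701 (helper701), package G-DEG1: convenient forms of the hypotheses. -/

open Set Filter Topology Metric
open scoped Manifold ContDiff

namespace Vale.Agent.P267.H701

section

variable {M : Type*} [TopologicalSpace M] [ChartedSpace (Fin 2 → ℂ) M]
  {Φ : M → (Fin 2 → ℂ)} {Ω : Set M} {V : Set (Fin 2 → ℂ)}

theorem imm_iff_bijective {x : M} : Imm Φ x ↔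
    Function.Bijective (mfderiv 𝓘(ℂ, Fin 2 → ℂ) 𝓘(ℂ, Fin 2 → ℂ) Φ x) := by
  refine ⟨fun h => ⟨h, ?_⟩, fun h => h.1⟩
  have key : ∀ L : (Fin 2 → ℂ) →L[ℂ] (Fin 2 → ℂ), Function.Injective L →
      Function.Surjective L := fun L hL =>
    LinearMap.surjective_of_injective (f := L.toLinearMap) hL
  exact key (mfderiv 𝓘(ℂ, Fin 2 → ℂ) 𝓘(ℂ, Fin 2 → ℂ) Φ x) h

variable [IsManifold 𝓘(ℂ, Fin 2 → ℂ) 1 M]

/-- near a limit of immersive points every point is a limit of immersive points -/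
theorem frequently_nhds {x : M}
    (hΦ : ∀ᶠ z in 𝓝 x, MDifferentiableAt 𝓘(ℂ, Fin 2 → ℂ) 𝓘(ℂ, Fin 2 → ℂ) Φ z)
    (hx : ∃ᶠ y in 𝓝 x, Imm Φ y) : ∀ᶠ z in 𝓝 x, ∃ᶠ y in 𝓝 z, Imm Φ y := by
  set κ := chartAt (Fin 2 → ℂ) x with hκ'
  have hκ : κ.MDifferentiable 𝓘(ℂ, Fin 2 → ℂ) 𝓘(ℂ, Fin 2 → ℂ) := chart_mdiff x
  have hp : x ∈ κ.source := mem_chart_source _ x
  have ht : Tendsto κ.symm (𝓝 (κ x)) (𝓝 x) := by
    have := (κ.continuousAt_symm (κ.map_source hp)).tendsto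
    rwa [κ.left_inv hp] at this
  obtain ⟨r, hr, hrs⟩ := Metric.eventually_nhds_iff_ball.1
    ((ht.eventually hΦ).and (κ.open_target.mem_nhds (κ.map_source hp)))
  have hΨ : DifferentiableOn ℂ (fun y => Φ (κ.symm y)) (ball (κ x) r) := fun y hy =>
    (differentiableAt_symm hκ (hrs y hy).2 (hrs y hy).1).differentiableWithinAt
  have hJ := differentiableOn_Jd isOpen_ball hΨ
  have hiff : ∀ z ∈ κ.source, κ z ∈ ball (κ x) r →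
      (Imm Φ z ↔ Jd (fderiv ℂ (fun y => Φ (κ.symm y)) (κ z)) ≠ 0) := by
    intro z hz hzr
    have h1 := (hrs _ hzr).1
    rw [κ.left_inv hz] at h1
    rw [imm_iff hκ hz h1, injective_iff_Jd]
  have hev : ∀ᶠ z in 𝓝 x, z ∈ κ.source ∧ κ z ∈ ball (κ x) r :=
    Filter.Eventually.and (show ∀ᶠ z in 𝓝 x, z ∈ κ.source from κ.open_source.mem_nhds hp)
      ((κ.continuousAt hp).tendsto.eventually (ball_mem_nhds _ hr))
  obtain ⟨y₀, hy₀, hy₀s, hy₀b⟩ := (hx.and_eventually hev).exists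
  filter_upwards [hev] with z hz
  by_contra hcon
  rw [not_frequently] at hcon
  have h1 : ∀ᶠ y in 𝓝 (κ z), Jd (fderiv ℂ (fun y => Φ (κ.symm y)) y) = 0 := by
    have ht2 : Tendsto κ.symm (𝓝 (κ z)) (𝓝 z) := by
      have := (κ.continuousAt_symm (κ.map_source hz.1)).tendsto
      rwa [κ.left_inv hz.1] at this
    filter_upwards [ht2.eventually hcon, isOpen_ball.mem_nhds hz.2] with y hy1 hy2
    by_contra h2
    have hyt := (hrs y hy2).2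
    have h3 := (hiff (κ.symm y) (κ.map_target hyt) (by rwa [κ.right_inv hyt])).2
      (by rwa [κ.right_inv hyt])
    exact hy1 h3
  have h2 := Vale.Agent.P267.H175.eq_zero_on_ball hJ hz.2 h1 _ hy₀b
  exact (hiff y₀ hy₀s hy₀b).1 hy₀ h2

/-- one immersive point in a connected open set suffices -/
theorem dense_of_preconnected (hc : IsPreconnected Ω) (hΩ : IsOpen Ω)
    (hmd : ∀ x ∈ Ω, MDifferentiableAt 𝓘(ℂ, Fin 2 → ℂ) 𝓘(ℂ, Fin 2 → ℂ) Φ x)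
    (hw : ∃ w ∈ Ω, Imm Φ w) : ∀ x ∈ Ω, ∃ᶠ y in 𝓝 x, Imm Φ y := by
  intro x hx
  by_contra hcon
  rw [not_frequently] at hcon
  obtain ⟨w, hw, hwi⟩ := hw
  have hmd' : ∀ z ∈ Ω, ∀ᶠ y in 𝓝 z,
      MDifferentiableAt 𝓘(ℂ, Fin 2 → ℂ) 𝓘(ℂ, Fin 2 → ℂ) Φ y := by
    intro z hz
    filter_upwards [hΩ.mem_nhds hz] with y hy using hmd y hy
  have hu : IsOpen {z : M | ∀ᶠ y in 𝓝 z, ¬ Imm Φ y} := isOpen_setOfPred_eventually_nhds
  have hv : IsOpen {z : M | ∀ᶠ y in 𝓝 z, ∃ᶠ t in 𝓝 y, Imm Φ t} :=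
    isOpen_setOfPred_eventually_nhds
  obtain ⟨z, hz, h1, h2⟩ := hc _ _ hu hv (by
    intro z hz
    by_cases h : ∃ᶠ y in 𝓝 z, Imm Φ y
    · exact Or.inr (frequently_nhds (hmd' z hz) h)
    · exact Or.inl (not_frequently.1 h)) ⟨x, hx, hcon⟩
    ⟨w, hw, frequently_nhds (hmd' w hw)
      (fun h => (Filter.Eventually.self_of_nhds h) hwi)⟩
  exact (Filter.Eventually.self_of_nhds h2) h1

omit [IsManifold 𝓘(ℂ, Fin 2 → ℂ) 1 M] in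
/-- the hypotheses of **G-DEG1** from one open set of values with unique preimages -/
theorem Deg.mk_unique (hΩ : IsOpen Ω)
    (hmd : ∀ x ∈ Ω, MDifferentiableAt 𝓘(ℂ, Fin 2 → ℂ) 𝓘(ℂ, Fin 2 → ℂ) Φ x)
    (hd : ∀ x ∈ Ω, ∃ᶠ y in 𝓝 x, Imm Φ y) (hV : IsOpen V) (hVc : IsPreconnected V)
    (hprop : ∀ K ⊆ V, IsCompact K → IsCompact (Ω ∩ Φ ⁻¹' K)) {Q : Set (Fin 2 → ℂ)}
    (hQ : IsOpen Q) (hQne : Q.Nonempty) (hQV : Q ⊆ V) (h1 : ∀ u ∈ Q, ∃! x, x ∈ Ω ∧ Φ x = u) :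
    Deg Φ Ω V := by
  refine ⟨hΩ, hmd, hd, hV, hVc, hprop, ?_⟩
  obtain ⟨u, hu⟩ := hQne
  obtain ⟨x, ⟨hx, hxu⟩, -⟩ := h1 u hu
  have hc : ContinuousAt Φ x := (hmd x hx).continuousAt
  have hev : ∀ᶠ y in 𝓝 x, y ∈ Ω ∧ Φ y ∈ Q :=
    Filter.Eventually.and (show ∀ᶠ y in 𝓝 x, y ∈ Ω from hΩ.mem_nhds hx)
      (hc.eventually (hQ.mem_nhds (by rwa [hxu])))
  obtain ⟨y, hy, hyΩ, hyQ⟩ := ((hd x hx).and_eventually hev).exists
  obtain ⟨z, -, hz⟩ := h1 _ hyQ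
  exact ⟨y, hyΩ, hQV hyQ, hy, fun t ht hty =>
    (hz t ⟨ht, hty⟩).trans (hz y ⟨hyΩ, rfl⟩).symm⟩

end

end Vale.Agent.P267.H701
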