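import Vale.Agent.P267.H701.Crit
import Vale.Agent.P267.H62.Str

/-! P267 / H701 (helper701), package G-DEG1, part 3: a holomorphic map of the plane `C^2` which is
degenerate exactly along a line, and not constant on it, is not injective off the line. -/

open Set Filter Topology Metric

namespace Vale.Agent.P267.H701

/-- the vector `(0,1)` -/
def ev1 : Fin 2 → ℂ := ![0, 1]

theorem ev1_ne : ev1 ≠ 0 := by
  intro h
  have := congrFun h 1
  simp [ev1] at this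

theorem vec_smul (t : ℂ) : (![0, t] : Fin 2 → ℂ) = t • ev1 := by
  funext i
  fin_cases i <;> simp [ev1]

theorem eq_smul_of_zero {v : Fin 2 → ℂ} (h : v 0 = 0) : v = v 1 • ev1 := by
  funext i
  fin_cases i
  · simp [ev1, h]
  · simp [ev1]

theorem index_cases : ∀ i j : Fin 2, j = i ∨ j = i + 1 := by decide

/-- **the local lemma** -/
theorem flat_two {Ψ : (Fin 2 → ℂ) → (Fin 2 → ℂ)} {r : ℝ}
    (hΨ : DifferentiableOn ℂ Ψ (ball 0 r))
    (hJ : ∀ y ∈ ball (0 : Fin 2 → ℂ) r, (¬ Function.Injective (fderiv ℂ Ψ y) ↔ y 0 = 0))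
    (hnc : ∃ t : ℂ, ‖t‖ < r ∧ Ψ ![0, t] ≠ Ψ 0) :
    ∃ y₁ ∈ ball (0 : Fin 2 → ℂ) r, ∃ y₂ ∈ ball (0 : Fin 2 → ℂ) r,
      y₁ ≠ y₂ ∧ y₁ 0 ≠ 0 ∧ y₂ 0 ≠ 0 ∧ Ψ y₁ = Ψ y₂ := by
  obtain ⟨t₁, ht₁, hne₁⟩ := hnc
  have hr : 0 < r := lt_of_le_of_lt (norm_nonneg _) ht₁
  have hvec : ∀ t : ℂ, ‖t‖ < r → t • ev1 ∈ ball (0 : Fin 2 → ℂ) r := by
    intro t ht
    rw [mem_ball_zero_iff, pi_norm_lt_iff hr]
    intro i
    fin_cases i
    · simpa [ev1] using hr
    · simpa [ev1] using ht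
  set ψ : ℂ → (Fin 2 → ℂ) := fun t => Ψ (t • ev1) with hψ
  have hψd : ∀ t : ℂ, ‖t‖ < r → HasDerivAt ψ (fderiv ℂ Ψ (t • ev1) ev1) t := by
    intro t ht
    have h1 : HasFDerivAt Ψ (fderiv ℂ Ψ (t • ev1)) (t • ev1) :=
      (hΨ.differentiableAt (isOpen_ball.mem_nhds (hvec t ht))).hasFDerivAt
    have h2 : HasDerivAt (fun t : ℂ => t • ev1) ev1 t := by
      have := (hasDerivAt_id t).smul_const ev1
      simpa using this
    exact h1.comp_hasDerivAt t h2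
  -- a point of the line where the derivative along the line does not vanish
  obtain ⟨t₀, ht₀, hd₀⟩ : ∃ t₀ : ℂ, ‖t₀‖ < r ∧ fderiv ℂ Ψ (t₀ • ev1) ev1 ≠ 0 := by
    by_contra hcon
    push Not at hcon
    apply hne₁
    have h1 : ψ t₁ = ψ 0 := by
      refine isOpen_ball.is_const_of_deriv_eq_zero (convex_ball (0 : ℂ) r).isPreconnected
        (fun t ht => (hψd t (mem_ball_zero_iff.1 ht)).differentiableAt.differentiableWithinAt)
        (fun t ht => ?_) (mem_ball_zero_iff.2 ht₁) (mem_ball_self hr)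
      have := (hψd t (mem_ball_zero_iff.1 ht)).deriv
      rw [this, hcon t (mem_ball_zero_iff.1 ht)]
      rfl
    rw [vec_smul]
    have h2 : Ψ 0 = ψ 0 := by simp [hψ]
    rw [h2]
    exact h1
  set y₀ : Fin 2 → ℂ := t₀ • ev1 with hy₀
  have hy₀b : y₀ ∈ ball (0 : Fin 2 → ℂ) r := hvec t₀ ht₀
  have hy₀0 : y₀ 0 = 0 := by simp [hy₀, ev1]
  set L : (Fin 2 → ℂ) →L[ℂ] (Fin 2 → ℂ) := fderiv ℂ Ψ y₀ with hL
  obtain ⟨i, hi⟩ : ∃ i, L ev1 i ≠ 0 := by
    by_contra hcon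
    push Not at hcon
    exact hd₀ (funext hcon)
  -- the new coordinates
  set H : (Fin 2 → ℂ) → ℂ × ℂ := fun y => (Ψ y i, y 0) with hH
  have hHd : DifferentiableOn ℂ H (ball 0 r) := by
    intro y hy
    have h1 : DifferentiableWithinAt ℂ (fun y => Ψ y i) (ball 0 r) y :=
      (differentiableWithinAt_pi.1 (hΨ y hy)) i
    exact h1.prodMk (differentiable_apply (𝕜 := ℂ) (0 : Fin 2) y).differentiableWithinAt
  set A₀ : (Fin 2 → ℂ) →L[ℂ] ℂ × ℂ :=
    ((ContinuousLinearMap.proj (R := ℂ) (φ := fun _ : Fin 2 => ℂ) i).comp L).prod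
      (ContinuousLinearMap.proj (R := ℂ) (φ := fun _ : Fin 2 => ℂ) 0) with hA₀
  have hA₀d : HasFDerivAt H A₀ y₀ := by
    have h1 : HasFDerivAt Ψ L y₀ := (hΨ.differentiableAt (isOpen_ball.mem_nhds hy₀b)).hasFDerivAt
    have h2 : HasFDerivAt (fun y => Ψ y i)
        ((ContinuousLinearMap.proj (R := ℂ) (φ := fun _ : Fin 2 => ℂ) i).comp L) y₀ :=
      (hasFDerivAt_pi'.1 h1) i
    exact h2.prodMk (ContinuousLinearMap.proj (R := ℂ) (φ := fun _ : Fin 2 => ℂ) 0).hasFDerivAt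
  have hA₀i : Function.Injective A₀ := by
    rw [injective_iff_map_eq_zero]
    intro v hv
    have h1 : L v i = 0 := congrArg Prod.fst hv
    have h2 : v 0 = 0 := congrArg Prod.snd hv
    have h3 := eq_smul_of_zero h2
    rw [h3, map_smul, Pi.smul_apply, smul_eq_mul] at h1
    rcases mul_eq_zero.1 h1 with h4 | h4
    · rw [h3, h4, zero_smul]
    · exact absurd h4 hi
  set A : (Fin 2 → ℂ) ≃L[ℂ] ℂ × ℂ :=
    (LinearEquiv.ofInjectiveOfFinrankEq A₀.toLinearMap hA₀i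
      (by simp)).toContinuousLinearEquiv with hA
  have hAd : HasFDerivAt H (A : (Fin 2 → ℂ) →L[ℂ] ℂ × ℂ) y₀ := by
    have : (A : (Fin 2 → ℂ) →L[ℂ] ℂ × ℂ) = A₀ := by
      ext v <;> rfl
    rw [this]
    exact hA₀d
  obtain ⟨φ, hφy, hφs, hφH, hφd, hφd'⟩ := Vale.Agent.P267.H62.exists_homeo isOpen_ball hy₀b hHd hAd
  set s₀ : ℂ := Ψ y₀ i with hs₀
  have hφy₀ : φ y₀ = (s₀, 0) := by rw [hφH, hH]; simp [hy₀0, hs₀]
  have hmem0 : (s₀, (0 : ℂ)) ∈ φ.target := by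
    rw [← hφy₀]
    exact φ.map_source hφy
  -- the curve
  set Y : ℂ → (Fin 2 → ℂ) := fun b => φ.symm (s₀, b) with hY
  have hY0 : Y 0 = y₀ := by
    rw [hY]
    simp only
    rw [← hφy₀, φ.left_inv hφy]
  set N₀ : Set ℂ := {b | (s₀, b) ∈ φ.target} with hN₀
  have hN₀o : IsOpen N₀ := φ.open_target.preimage (by fun_prop)
  have hN₀0 : (0 : ℂ) ∈ N₀ := hmem0
  have hYs : ∀ b ∈ N₀, Y b ∈ φ.source := fun b hb => φ.map_target hb
  have hYb : ∀ b ∈ N₀, Y b ∈ ball (0 : Fin 2 → ℂ) r := fun b hb => hφs (hYs b hb)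
  have hHY : ∀ b ∈ N₀, Ψ (Y b) i = s₀ ∧ Y b 0 = b := by
    intro b hb
    have h1 : φ (Y b) = (s₀, b) := φ.right_inv hb
    rw [hφH] at h1
    exact ⟨congrArg Prod.fst h1, congrArg Prod.snd h1⟩
  have hYd : ∀ b ∈ N₀, DifferentiableAt ℂ Y b := by
    intro b hb
    have h1 : DifferentiableAt ℂ φ.symm (s₀, b) :=
      hφd'.differentiableAt (φ.open_target.mem_nhds hb)
    exact DifferentiableAt.comp (g := φ.symm) (f := fun b : ℂ => (s₀, b)) b h1 (by fun_prop)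
  have hΨd : ∀ b ∈ N₀, DifferentiableAt ℂ Ψ (Y b) := fun b hb =>
    hΨ.differentiableAt (isOpen_ball.mem_nhds (hYb b hb))
  have hcomp : ∀ b ∈ N₀, HasDerivAt (fun b => Ψ (Y b)) (fderiv ℂ Ψ (Y b) (deriv Y b)) b :=
    fun b hb => (hΨd b hb).hasFDerivAt.comp_hasDerivAt b (hYd b hb).hasDerivAt
  have hw0 : ∀ b ∈ N₀, deriv Y b 0 = 1 := by
    intro b hb
    have h1 : HasDerivAt (fun b => Y b 0) (deriv Y b 0) b := (hasDerivAt_pi.1 (hYd b hb).hasDerivAt) 0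
    have h2 : (fun b => Y b 0) =ᶠ[𝓝 b] fun b => b := by
      filter_upwards [hN₀o.mem_nhds hb] with c hc using (hHY c hc).2
    exact (h1.congr_of_eventuallyEq h2.symm).unique (hasDerivAt_id b)
  have hwi : ∀ b ∈ N₀, fderiv ℂ Ψ (Y b) (deriv Y b) i = 0 := by
    intro b hb
    have h1 : HasDerivAt (fun b => Ψ (Y b) i) (fderiv ℂ Ψ (Y b) (deriv Y b) i) b :=
      (hasDerivAt_pi.1 (hcomp b hb)) i
    have h2 : (fun b => Ψ (Y b) i) =ᶠ[𝓝 b] fun _ => s₀ := by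
      filter_upwards [hN₀o.mem_nhds hb] with c hc using (hHY c hc).1
    exact (h1.congr_of_eventuallyEq h2.symm).unique (hasDerivAt_const b s₀)
  set k : Fin 2 := i + 1 with hk
  set f : ℂ → ℂ := fun b => Ψ (Y b) k with hf
  have hfd : ∀ b ∈ N₀, HasDerivAt f (fderiv ℂ Ψ (Y b) (deriv Y b) k) b := fun b hb =>
    (hasDerivAt_pi.1 (hcomp b hb)) k
  have hwne : ∀ b ∈ N₀, deriv Y b ≠ 0 := by
    intro b hb h
    have := hw0 b hb
    rw [h] at this
    simp at this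
  -- critical points of `f`
  have hcrit : ∀ b ∈ N₀, deriv f b = 0 → b = 0 := by
    intro b hb h
    rw [(hfd b hb).deriv] at h
    have h1 : fderiv ℂ Ψ (Y b) (deriv Y b) = 0 := by
      funext j
      rcases index_cases i j with rfl | hj
      · exact hwi b hb
      · rw [hj]
        exact h
    have h2 : ¬ Function.Injective (fderiv ℂ Ψ (Y b)) := by
      intro hinj
      exact hwne b hb (hinj (by rw [h1, map_zero]))
    have h3 := (hJ _ (hYb b hb)).1 h2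
    rwa [(hHY b hb).2] at h3
  have hf0 : deriv f 0 = 0 := by
    rw [(hfd 0 hN₀0).deriv, hY0, ← hL]
    have h1 : ¬ Function.Injective L := (hJ y₀ hy₀b).2 hy₀0
    rw [injective_iff_map_eq_zero] at h1
    push Not at h1
    obtain ⟨v, hv, hv0⟩ := h1
    have hv00 : v 0 ≠ 0 := by
      intro h
      have h3 := eq_smul_of_zero h
      have h4 : L v i = 0 := by rw [hv]; rfl
      rw [h3, map_smul, Pi.smul_apply, smul_eq_mul] at h4
      rcases mul_eq_zero.1 h4 with h5 | h5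
      · exact hv0 (by rw [h3, h5, zero_smul])
      · exact hi h5
    set w : Fin 2 → ℂ := deriv Y 0 with hw
    set d : Fin 2 → ℂ := w - (v 0)⁻¹ • v with hd
    have hd0 : d 0 = 0 := by
      rw [hd, Pi.sub_apply, Pi.smul_apply, smul_eq_mul, inv_mul_cancel₀ hv00, hw, hw0 0 hN₀0,
        sub_self]
    have hLd : L d i = 0 := by
      rw [hd, map_sub, map_smul, hv, smul_zero, sub_zero, hw]
      have := hwi 0 hN₀0
      rwa [hY0, ← hL] at this
    have h3 := eq_smul_of_zero hd0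
    rw [h3, map_smul, Pi.smul_apply, smul_eq_mul] at hLd
    have hd' : d = 0 := by
      rcases mul_eq_zero.1 hLd with h5 | h5
      · rw [h3, h5, zero_smul]
      · exact absurd h5 hi
    have hw' : w = (v 0)⁻¹ • v := sub_eq_zero.1 hd'
    rw [hw', map_smul, hv, smul_zero]
    rfl
  have hfan : AnalyticAt ℂ f 0 := by
    have : DifferentiableOn ℂ f N₀ := fun b hb => (hfd b hb).differentiableAt.differentiableWithinAt
    exact this.analyticAt (hN₀o.mem_nhds hN₀0)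
  have hne : ∀ᶠ b in 𝓝[≠] (0 : ℂ), deriv f b ≠ 0 := by
    filter_upwards [self_mem_nhdsWithin, nhdsWithin_le_nhds (hN₀o.mem_nhds hN₀0)] with b hb hbN h
    exact hb (hcrit b hbN h)
  obtain ⟨b₁, hb₁, b₂, hb₂, h12, h10, h20, hff⟩ :=
    exists_two_preimages hfan hf0 hne (hN₀o.mem_nhds hN₀0)
  refine ⟨Y b₁, hYb b₁ hb₁, Y b₂, hYb b₂ hb₂, ?_, ?_, ?_, ?_⟩
  · intro h
    apply h12
    rw [← (hHY b₁ hb₁).2, ← (hHY b₂ hb₂).2, h]
  · rw [(hHY b₁ hb₁).2]; exact h10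
  · rw [(hHY b₂ hb₂).2]; exact h20
  · funext j
    rcases index_cases i j with rfl | hj
    · rw [(hHY b₁ hb₁).1, (hHY b₂ hb₂).1]
    · rw [hj]
      exact hff

end Vale.Agent.P267.H701
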