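import Mathlib

/-! P267 / H701 (helper701): a holomorphic function which vanishes to infinite order at a point
vanishes on every ball around it. -/

open Set Filter Topology Metric

namespace Vale.Agent.P267.H701

theorem flat_one {φ : ℂ → ℂ} (hφ : AnalyticAt ℂ φ 0)
    (h : ∀ m : ℕ, ∃ K : ℝ, ∀ᶠ t in 𝓝 (0 : ℂ), ‖φ t‖ ≤ K * ‖t‖ ^ m) :
    ∀ᶠ t in 𝓝 (0 : ℂ), φ t = 0 := by
  by_contra hcon
  obtain ⟨n, ψ, hψ, hψ0, hev⟩ := hφ.exists_eventuallyEq_pow_smul_nonzero_iff.2 hcon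
  obtain ⟨K, hK⟩ := h (n + 1)
  have h1 : ∀ᶠ t in 𝓝[≠] (0 : ℂ), ‖ψ t‖ ≤ K * ‖t‖ := by
    filter_upwards [(hev.and hK).filter_mono nhdsWithin_le_nhds, self_mem_nhdsWithin]
      with t ht ht0
    have ht0' : 0 < ‖t‖ ^ n := pow_pos (norm_pos_iff.2 ht0) n
    have h2 := ht.2
    rw [ht.1, sub_zero, norm_smul, norm_pow, pow_succ] at h2
    have h3 : ‖t‖ ^ n * ‖ψ t‖ ≤ ‖t‖ ^ n * (K * ‖t‖) := by
      refine h2.trans (le_of_eq ?_)
      ring
    exact le_of_mul_le_mul_left h3 ht0'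
  have h2 : Tendsto (fun t => ‖ψ t‖) (𝓝[≠] (0 : ℂ)) (𝓝 ‖ψ 0‖) :=
    (hψ.continuousAt.norm.tendsto).mono_left nhdsWithin_le_nhds
  have h3 : Tendsto (fun t : ℂ => K * ‖t‖) (𝓝[≠] (0 : ℂ)) (𝓝 (K * ‖(0 : ℂ)‖)) :=
    ((continuous_norm.const_mul K).tendsto 0).mono_left nhdsWithin_le_nhds
  have h4 := le_of_tendsto_of_tendsto h2 h3 h1
  rw [norm_zero, mul_zero] at h4
  exact hψ0 (norm_le_zero_iff.1 h4)

theorem flat_ball {E : Type*} [NormedAddCommGroup E] [NormedSpace ℂ E] {c : E} {r : ℝ}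
    {G : E → ℂ} (hG : DifferentiableOn ℂ G (ball c r))
    (h : ∀ m : ℕ, ∃ K : ℝ, ∀ᶠ z in 𝓝 c, ‖G z‖ ≤ K * ‖z - c‖ ^ m) :
    ∀ z ∈ ball c r, G z = 0 := by
  intro z hz
  set ℓ : ℂ → E := fun t => c + t • (z - c) with hℓ
  have hℓd : Differentiable ℂ ℓ := fun t =>
    (differentiableAt_id.smul_const (z - c)).const_add c
  have hℓc : Continuous ℓ := hℓd.continuous
  set T : Set ℂ := ℓ ⁻¹' ball c r with hT
  have hTo : IsOpen T := isOpen_ball.preimage hℓc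
  let _ : NormedSpace ℝ E := NormedSpace.restrictScalars ℝ ℂ E
  have hr : 0 < r := lt_of_le_of_lt dist_nonneg (mem_ball.1 hz)
  have hTc : IsPreconnected T := by
    have h1 : T = {t : ℂ | ‖t‖ * ‖z - c‖ < r} := by
      ext t
      simp only [hT, hℓ, mem_preimage, mem_ball, dist_eq_norm, add_sub_cancel_left, norm_smul]
      rfl
    rw [h1]
    refine Convex.isPreconnected ?_
    intro a ha b hb s t hs ht hst
    have ha' : ‖a‖ * ‖z - c‖ < r := ha
    have hb' : ‖b‖ * ‖z - c‖ < r := hb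
    change ‖s • a + t • b‖ * ‖z - c‖ < r
    have h2 : ‖s • a + t • b‖ ≤ s * ‖a‖ + t * ‖b‖ := by
      refine (norm_add_le _ _).trans ?_
      rw [norm_smul, norm_smul, Real.norm_of_nonneg hs, Real.norm_of_nonneg ht]
    have h3 : s * (‖a‖ * ‖z - c‖) + t * (‖b‖ * ‖z - c‖) < r := by
      have h4 : s * r + t * r = r := by rw [← add_mul, hst, one_mul]
      rcases hs.eq_or_lt with hs0 | hs0
      · have ht1 : t = 1 := by rw [← hs0] at hst; linarith
        rw [← hs0, ht1]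
        linarith
      · have h5 : s * (‖a‖ * ‖z - c‖) < s * r := mul_lt_mul_of_pos_left ha' hs0
        have h6 : t * (‖b‖ * ‖z - c‖) ≤ t * r := mul_le_mul_of_nonneg_left hb'.le ht
        linarith
    calc ‖s • a + t • b‖ * ‖z - c‖ ≤ (s * ‖a‖ + t * ‖b‖) * ‖z - c‖ :=
          mul_le_mul_of_nonneg_right h2 (norm_nonneg _)
      _ = s * (‖a‖ * ‖z - c‖) + t * (‖b‖ * ‖z - c‖) := by ring
      _ < r := h3
  have h0T : (0 : ℂ) ∈ T := by
    simp only [hT, hℓ, mem_preimage, zero_smul, add_zero]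
    exact mem_ball_self hr
  have h1T : (1 : ℂ) ∈ T := by
    simp only [hT, hℓ, mem_preimage, one_smul, add_sub_cancel]
    exact hz
  have hφ : DifferentiableOn ℂ (fun t => G (ℓ t)) T :=
    hG.comp hℓd.differentiableOn fun t ht => ht
  have hφa : AnalyticOnNhd ℂ (fun t => G (ℓ t)) T := hφ.analyticOnNhd hTo
  have h0 : ∀ᶠ t in 𝓝 (0 : ℂ), G (ℓ t) = 0 := by
    refine flat_one (hφa 0 h0T) fun m => ?_
    obtain ⟨K, hK⟩ := h m
    refine ⟨K * ‖z - c‖ ^ m, ?_⟩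
    have ht : Tendsto ℓ (𝓝 0) (𝓝 c) := by
      have := hℓc.tendsto 0
      simpa only [hℓ, zero_smul, add_zero] using this
    filter_upwards [ht.eventually hK] with t hKt
    refine hKt.trans (le_of_eq ?_)
    simp only [hℓ, add_sub_cancel_left, norm_smul]
    rw [mul_pow]
    ring
  have h1 := hφa.eqOn_zero_of_preconnected_of_eventuallyEq_zero hTc h0T h0 h1T
  simpa only [hℓ, one_smul, add_sub_cancel, Pi.zero_apply] using h1

end Vale.Agent.P267.H701
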