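import Vale.Agent.P267.H701.Imm

/-! P267 / H701 (helper701): charts of the maximal atlas from injective immersions near a compact
set. -/

open Set Filter Topology Metric
open scoped Manifold ContDiff

noncomputable section

namespace Vale.Agent.P267.H701

section

variable {M : Type*} [TopologicalSpace M] [ChartedSpace (Fin 2 → ℂ) M]

/-- a biholomorphic map between open sets is a chart of the maximal atlas -/
theorem mem_maximalAtlas_of_mdiff [IsManifold 𝓘(ℂ, Fin 2 → ℂ) ω M]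
    {κ : OpenPartialHomeomorph M (Fin 2 → ℂ)}
    (hκ : κ.MDifferentiable 𝓘(ℂ, Fin 2 → ℂ) 𝓘(ℂ, Fin 2 → ℂ)) :
    κ ∈ IsManifold.maximalAtlas 𝓘(ℂ, Fin 2 → ℂ) ω M := by
  have : IsManifold 𝓘(ℂ, Fin 2 → ℂ) 1 M := IsManifold.of_le (n := ω) le_top
  have key : ∀ f : OpenPartialHomeomorph (Fin 2 → ℂ) (Fin 2 → ℂ),
      (∀ z ∈ f.source, DifferentiableAt ℂ f z) → ContDiffOn ℂ ω f f.source := by
    intro f hf z hz
    have h1 : AnalyticAt ℂ f z := Vale.Agent.P268.analyticAt_of_differentiableOn f.open_source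
      (fun w hw => (hf w hw).differentiableWithinAt) hz
    exact h1.contDiffAt.contDiffWithinAt
  have hg : ∀ f : OpenPartialHomeomorph (Fin 2 → ℂ) (Fin 2 → ℂ),
      (∀ z ∈ f.source, DifferentiableAt ℂ f z) → (∀ z ∈ f.target, DifferentiableAt ℂ f.symm z) →
      f ∈ contDiffGroupoid ω 𝓘(ℂ, Fin 2 → ℂ) := by
    intro f h h'
    rw [contDiffGroupoid, mem_groupoid_of_pregroupoid]
    constructor
    · have := key f h
      simpa [contDiffPregroupoid] using this
    · have := key f.symm h'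
      simpa [contDiffPregroupoid] using this
  rw [IsManifold.mem_maximalAtlas_iff, mem_maximalAtlas_iff]
  intro e' he'
  have he'm : e'.MDifferentiable 𝓘(ℂ, Fin 2 → ℂ) 𝓘(ℂ, Fin 2 → ℂ) := mdifferentiable_of_mem_atlas he'
  have h1 : ∀ z ∈ (κ.symm.trans e').source, DifferentiableAt ℂ (κ.symm.trans e') z := by
    intro z hz
    have hz' : z ∈ κ.target ∧ κ.symm z ∈ e'.source := by simpa using hz
    exact mdifferentiableAt_iff_differentiableAt.1
      (MDifferentiableAt.comp (I' := 𝓘(ℂ, Fin 2 → ℂ)) (g := e') (f := κ.symm) z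
        (he'm.mdifferentiableAt hz'.2) (hκ.symm.mdifferentiableAt hz'.1))
  have h2 : ∀ z ∈ (e'.symm.trans κ).source, DifferentiableAt ℂ (e'.symm.trans κ) z := by
    intro z hz
    have hz' : z ∈ e'.target ∧ e'.symm z ∈ κ.source := by simpa using hz
    exact mdifferentiableAt_iff_differentiableAt.1
      (MDifferentiableAt.comp (I' := 𝓘(ℂ, Fin 2 → ℂ)) (g := κ) (f := e'.symm) z
        (hκ.mdifferentiableAt hz'.2) (he'm.symm.mdifferentiableAt hz'.1))
  constructor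
  · refine hg _ h1 ?_
    intro z hz
    exact h2 z (by simpa [and_comm] using hz)
  · refine hg _ h2 ?_
    intro z hz
    exact h1 z (by simpa [and_comm] using hz)

variable [IsManifold 𝓘(ℂ, Fin 2 → ℂ) 1 M] {Φ : M → (Fin 2 → ℂ)}

/-- an injective immersion near a compact set is a chart near the compact set -/
theorem exists_chart_nhds [Nonempty M] {K U : Set M} (hK : IsCompact K) (hU : IsOpen U)
    (hKU : K ⊆ U) (hΦ : ∀ x ∈ U, MDifferentiableAt 𝓘(ℂ, Fin 2 → ℂ) 𝓘(ℂ, Fin 2 → ℂ) Φ x)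
    (hi : ∀ x ∈ K, Imm Φ x) (hinj : InjOn Φ K) :
    ∃ κ : OpenPartialHomeomorph M (Fin 2 → ℂ), K ⊆ κ.source ∧ κ.source ⊆ U ∧
      (∀ x ∈ κ.source, κ x = Φ x) ∧ κ.MDifferentiable 𝓘(ℂ, Fin 2 → ℂ) 𝓘(ℂ, Fin 2 → ℂ) := by
  set U' : Set M := {x | ∃ φ : OpenPartialHomeomorph M (Fin 2 → ℂ), x ∈ φ.source ∧
    φ.source ⊆ U ∧ (∀ z ∈ φ.source, φ z = Φ z) ∧
    φ.MDifferentiable 𝓘(ℂ, Fin 2 → ℂ) 𝓘(ℂ, Fin 2 → ℂ)} with hU'
  have hU'o : IsOpen U' := by
    rw [isOpen_iff_forall_mem_open]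
    rintro x ⟨φ, h1, h2, h3, h4⟩
    exact ⟨φ.source, fun y hy => ⟨φ, hy, h2, h3, h4⟩, φ.open_source, h1⟩
  have hKU' : K ⊆ U' := by
    intro x hx
    obtain ⟨φ, h1, h2, h3, h4⟩ := exists_local (chart_mdiff x) (mem_chart_source _ x)
      (by filter_upwards [hU.mem_nhds (hKU hx)] with z hz using hΦ z hz) (hi x hx)
      (hU.mem_nhds (hKU hx))
    exact ⟨φ, h1, h2, h3, h4⟩
  obtain ⟨t, ht, hinjt⟩ := hinj.exists_mem_nhdsSet hK
    (fun x hx => (hΦ x (hKU hx)).continuousAt) (by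
      intro x hx
      obtain ⟨φ, h1, h2, h3, h4⟩ := hKU' hx
      refine ⟨φ.source, φ.open_source.mem_nhds h1, ?_⟩
      intro a ha b hb hab
      rw [← h3 a ha, ← h3 b hb] at hab
      exact φ.injOn ha hb hab)
  set N : Set M := U' ∩ interior t with hN
  have hNo : IsOpen N := hU'o.inter isOpen_interior
  have hKN : K ⊆ N := subset_inter hKU' (subset_interior_iff_mem_nhdsSet.2 ht)
  have hNi : InjOn Φ N := hinjt.mono fun x hx => interior_subset hx.2
  have hopen : ∀ V ⊆ N, IsOpen V → IsOpen (Φ '' V) := by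
    intro V hV hVo
    rw [isOpen_iff_mem_nhds]
    rintro _ ⟨x, hx, rfl⟩
    obtain ⟨φ, h1, h2, h3, h4⟩ := (hV hx).1
    have h5 : IsOpen (φ '' (V ∩ φ.source)) :=
      φ.isOpen_image_of_subset_source (hVo.inter φ.open_source) inter_subset_right
    refine mem_of_superset (h5.mem_nhds ⟨x, ⟨hx, h1⟩, h3 x h1⟩) ?_
    rintro _ ⟨y, hy, rfl⟩
    exact ⟨y, hy.1, (h3 y hy.2).symm⟩
  set e₀ : PartialEquiv M (Fin 2 → ℂ) := hNi.toPartialEquiv Φ N with he₀
  have hcont : ContinuousOn e₀ e₀.source := fun x hx => by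
    obtain ⟨φ, h1, h2, h3, h4⟩ := (show x ∈ N from hx).1
    exact (hΦ x (h2 h1)).continuousAt.continuousWithinAt
  have homap : IsOpenMap (e₀.source.domRestrict e₀) := by
    intro V hV
    have h5 : IsOpen (Subtype.val '' V : Set M) := hNo.isOpenMap_subtype_val V hV
    have h6 := hopen _ (by rintro _ ⟨x, -, rfl⟩; exact x.2) h5
    convert h6 using 1
    ext y
    constructor
    · rintro ⟨x, hx, rfl⟩
      exact ⟨x, ⟨x, hx, rfl⟩, rfl⟩
    · rintro ⟨_, ⟨x, hx, rfl⟩, rfl⟩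
      exact ⟨x, hx, rfl⟩
  set κ : OpenPartialHomeomorph M (Fin 2 → ℂ) :=
    OpenPartialHomeomorph.ofContinuousOpenRestrict e₀ hcont homap hNo with hκ
  have hsrc : κ.source = N := rfl
  have hval : ∀ x, κ x = Φ x := fun x => rfl
  refine ⟨κ, hKN, ?_, fun x _ => hval x, ?_, ?_⟩
  · rintro x hx
    obtain ⟨φ, h1, h2, h3, h4⟩ := (show x ∈ N from hx).1
    exact h2 h1
  · intro x hx
    obtain ⟨φ, h1, h2, h3, h4⟩ := (show x ∈ N from hx).1
    exact (hΦ x (h2 h1)).mdifferentiableWithinAt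
  · intro y hy
    have hx : κ.symm y ∈ N := κ.map_target hy
    obtain ⟨φ, h1, h2, h3, h4⟩ := hx.1
    have hyx : Φ (κ.symm y) = y := κ.right_inv hy
    have h5 : IsOpen (φ '' (N ∩ φ.source)) :=
      φ.isOpen_image_of_subset_source (hNo.inter φ.open_source) inter_subset_right
    have h6 : y ∈ φ '' (N ∩ φ.source) := ⟨_, ⟨hx, h1⟩, (h3 _ h1).trans hyx⟩
    have h7 : κ.symm =ᶠ[𝓝 y] φ.symm := by
      filter_upwards [h5.mem_nhds h6] with w hw
      obtain ⟨x', ⟨hx'N, hx's⟩, rfl⟩ := hw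
      rw [φ.left_inv hx's, h3 x' hx's, ← hval x']
      exact κ.left_inv hx'N
    have h8 : y ∈ φ.target := by
      rw [← hyx, ← h3 _ h1]
      exact φ.map_source h1
    exact ((h4.symm.mdifferentiableAt h8).congr_of_eventuallyEq h7).mdifferentiableWithinAt

end

end Vale.Agent.P267.H701
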